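import Vale.Agent.P298.H98.OTC

/-!
# P298, OT-C: trace and growth, second part: the extension theorem
-/

open MeasureTheory Set Filter Topology Metric Polynomial
open scoped ENNReal
open Vale.Agent.P298 Vale.Agent.P298.H379

namespace Vale.Agent.P298.H98

variable {d e : ℕ} {r : ℝ}

lemma differentiable_ev {d e : ℕ} (h : H379.Q d e) : Differentiable ℂ (ev h) := by
  unfold ev
  refine Differentiable.fun_sum fun α _ => ?_
  refine (differentiable_const _).mul ?_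
  simp only [Fin.prod_univ_three]
  fun_prop

lemma differentiable_Gf (c : Fin 3 → ℂ) (b : ℂ → H379.Q d (d - 1)) (τ : ℂ) :
    Differentiable ℂ (Gf c b τ) := by
  unfold Gf
  refine Differentiable.add ?_ (differentiable_ev _)
  exact Differentiable.fun_sum fun i _ => by fun_prop

lemma pd_Gf (c : Fin 3 → ℂ) (b : ℂ → H379.Q d (d - 1)) (y : Fin 3 → ℂ) (z : ℂ) :
    pd 2 (Gf c b (y 2)) ![y 0, y 1, z] = (derivative (px c b y)).eval z := by
  have h1 : HasDerivAt (fun s : ℂ => (![y 0, y 1, s] : Fin 3 → ℂ)) (Pi.single 2 1) z := by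
    rw [hasDerivAt_pi]
    intro i
    fin_cases i
    · exact hasDerivAt_const _ _
    · exact hasDerivAt_const _ _
    · exact hasDerivAt_id _
  have h2 := ((differentiable_Gf c b (y 2)) ![y 0, y 1, z]).hasFDerivAt.comp_hasDerivAt z h1
  have h3 : (Gf c b (y 2) ∘ fun s : ℂ => (![y 0, y 1, s] : Fin 3 → ℂ)) =
      fun s => (px c b y).eval s := funext fun s => (eval_px c b y s).symm
  rw [h3] at h2
  exact h2.unique ((px c b y).hasDerivAt z)

/-- the base points over which all roots are nondegenerate -/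
def Vr (c : Fin 3 → ℂ) (b : ℂ → H379.Q d (d - 1)) (r : ℝ) : Set (Fin 3 → ℂ) :=
  {y | ‖y 2‖ < r ∧ ∀ z, Gf c b (y 2) ![y 0, y 1, z] = 0 →
    pd 2 (Gf c b (y 2)) ![y 0, y 1, z] ≠ 0}

lemma mem_Vr_iff {c : Fin 3 → ℂ} (hc : c 2 ≠ 0) {b : ℂ → H379.Q d (d - 1)} (hd : 0 < d)
    {y : Fin 3 → ℂ} : y ∈ Vr c b r ↔ y ∈ Ud r ∧ dsc c b y ≠ 0 := by
  rw [dsc_ne_zero_iff hc hd, separable_def, isCoprime_iff_aeval_ne_zero_of_isAlgClosed ℂ ℂ]
  simp only [coe_aeval_eq_eval]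
  constructor
  · rintro ⟨h1, h2⟩
    refine ⟨h1, fun z => ?_⟩
    by_cases hz : (px c b y).eval z = 0
    · right
      rw [← pd_Gf]
      exact h2 z (by rw [← eval_px]; exact hz)
    · left; exact hz
  · rintro ⟨h1, h2⟩
    refine ⟨h1, fun z hz => ?_⟩
    rw [pd_Gf]
    rw [← eval_px] at hz
    exact (h2 z).resolve_left (fun h => h hz)

lemma isOpen_Vr {c : Fin 3 → ℂ} (hc : c 2 ≠ 0) {b : ℂ → H379.Q d (d - 1)} (hd : 0 < d)
    (hb : DifferentiableOn ℂ b (ball 0 r)) : IsOpen (Vr c b r) := by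
  have h1 : Vr c b r = Ud r ∩ dsc c b ⁻¹' {0}ᶜ := by
    ext y
    rw [mem_Vr_iff hc hd]
    rfl
  rw [h1]
  exact (dsc_diff hb).continuousOn.isOpen_inter_preimage (isOpen_Ud r) isOpen_compl_singleton

/-- `u` is holomorphic along the roots, which are locally holomorphic functions -/
def LocRt (c : Fin 3 → ℂ) (b : ℂ → H379.Q d (d - 1)) (r : ℝ) (u : (Fin 3 → ℂ) → ℂ → ℂ) : Prop :=
  ∀ y₀ ∈ Vr c b r, ∃ W : Set (Fin 3 → ℂ), IsOpen W ∧ y₀ ∈ W ∧
    ∃ ρ : Fin d → (Fin 3 → ℂ) → ℂ, (∀ i, DifferentiableOn ℂ (ρ i) W) ∧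
      (∀ y ∈ W, Function.Injective fun i => ρ i y) ∧
      (∀ y ∈ W, ∀ i, Gf c b (y 2) ![y 0, y 1, ρ i y] = 0) ∧
      ∀ i, DifferentiableOn ℂ (fun y => u y (ρ i y)) W

lemma bl_diff {c : Fin 3 → ℂ} {b : ℂ → H379.Q d (d - 1)} (hb : DifferentiableOn ℂ b (ball 0 r))
    {W : Set (Fin 3 → ℂ)} (hW : W ⊆ Ud r) {ρ : (Fin 3 → ℂ) → ℂ} (hρ : DifferentiableOn ℂ ρ W)
    (l : ℕ) : DifferentiableOn ℂ (fun y => bl c b l y (ρ y)) W := by
  unfold bl
  exact DifferentiableOn.fun_sum fun i _ => (hρ.pow _).mul ((coeff_diff hb i).mono hW)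

lemma tr_diff {c : Fin 3 → ℂ} (hc : c 2 ≠ 0) {b : ℂ → H379.Q d (d - 1)} (hd : 0 < d)
    (hb : DifferentiableOn ℂ b (ball 0 r)) {u : (Fin 3 → ℂ) → ℂ → ℂ} (hu : LocRt c b r u) (l : ℕ) :
    DifferentiableOn ℂ (fun y => tr c b l y (u y)) (Vr c b r) := by
  intro y₀ hy₀
  obtain ⟨W, hWo, hyW, ρ, hρ, hinj, hroot, huρ⟩ := hu y₀ hy₀
  set W' := W ∩ Vr c b r with hW'
  have hW'o : IsOpen W' := hWo.inter (isOpen_Vr hc hd hb)
  have hy' : y₀ ∈ W' := ⟨hyW, hy₀⟩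
  have hW'U : W' ⊆ Ud r := fun y hy => ((mem_Vr_iff hc hd).1 hy.2).1
  have h1 : ∀ y ∈ W', rts c b y = Finset.univ.image (fun i => ρ i y) := by
    intro y hy
    symm
    apply Finset.eq_of_subset_of_card_le
    · intro z hz
      obtain ⟨i, -, rfl⟩ := Finset.mem_image.1 hz
      rw [mem_rts hc hd, eval_px]
      exact hroot y hy.1 i
    · rw [Finset.card_image_of_injective _ (hinj y hy.1), Finset.card_univ, Fintype.card_fin]
      exact card_rts_le hc hd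
  have h2 : ∀ y ∈ W', tr c b l y (u y) = ∑ i, u y (ρ i y) * bl c b l y (ρ i y) := by
    intro y hy
    rw [tr, h1 y hy, Finset.sum_image fun i _ j _ hij => hinj y hy.1 hij]
  have h3 : DifferentiableOn ℂ (fun y => ∑ i, u y (ρ i y) * bl c b l y (ρ i y)) W' :=
    DifferentiableOn.fun_sum fun i _ => ((huρ i).mono inter_subset_left).mul
      (bl_diff hb hW'U ((hρ i).mono inter_subset_left) l)
  have h4 : DifferentiableAt ℂ (fun y => ∑ i, u y (ρ i y) * bl c b l y (ρ i y)) y₀ :=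
    h3.differentiableAt (hW'o.mem_nhds hy')
  refine (h4.congr_of_eventuallyEq ?_).differentiableWithinAt
  filter_upwards [hW'o.mem_nhds hy'] with y hy using h2 y hy

lemma isPreconnected_Ud (r : ℝ) : IsPreconnected (Ud r) := by
  have : Convex ℝ (Ud r) := by
    have h1 : Ud r = (fun y : Fin 3 → ℂ => y 2) ⁻¹' ball (0 : ℂ) r := by
      ext y
      simp [Ud]
    rw [h1]
    exact (convex_ball (0 : ℂ) r).is_linear_preimage ⟨fun _ _ => rfl, fun _ _ => rfl⟩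
  exact this.isPreconnected

/-- the discriminant does not vanish identically near any point -/
lemma dsc_frequently {c : Fin 3 → ℂ} (hc : c 2 ≠ 0) {b : ℂ → H379.Q d (d - 1)} (hd : 0 < d)
    (hb : DifferentiableOn ℂ b (ball 0 r)) (hne : (Vr c b r).Nonempty) :
    ∀ p ∈ Ud r, ∃ᶠ z in 𝓝 p, dsc c b z ≠ 0 := by
  intro p hp hcon
  obtain ⟨y, hy⟩ := hne
  rw [mem_Vr_iff hc hd] at hy
  have h1 : AnalyticOnNhd ℂ (dsc c b) (Ud r) :=
    Vale.Agent.P268.analyticOnNhd_of_differentiableOn (isOpen_Ud r) (dsc_diff hb)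
  have h2 : dsc c b =ᶠ[𝓝 p] 0 := by
    filter_upwards [hcon] with z hz
    simpa using hz
  exact hy.2 (h1.eqOn_zero_of_preconnected_of_eventuallyEq_zero (isPreconnected_Ud r) hp h2 hy.1)

/-- the discriminant locus is a null set -/
lemma dsc_null {c : Fin 3 → ℂ} (hc : c 2 ≠ 0) {b : ℂ → H379.Q d (d - 1)} (hd : 0 < d)
    (hb : DifferentiableOn ℂ b (ball 0 r)) (hne : (Vr c b r).Nonempty) :
    volume (Ud r \ Vr c b r) = 0 := by
  apply measure_null_of_locally_null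
  intro p hp
  obtain ⟨δ, hδ, hsub, h0⟩ := Vale.Agent.P271.LOCE.zero_null volume (isOpen_Ud r) (dsc_diff hb)
    hp.1 (dsc_frequently hc hd hb hne p hp.1)
  refine ⟨{w ∈ ball p δ | dsc c b w = 0}, ?_, h0⟩
  rw [mem_nhdsWithin]
  refine ⟨ball p δ, isOpen_ball, mem_ball_self hδ, ?_⟩
  rintro y ⟨hy1, hy2, hy3⟩
  refine ⟨hy1, ?_⟩
  by_contra hcon
  exact hy3 ((mem_Vr_iff hc hd).2 ⟨hy2, hcon⟩)

lemma wt_add (a : ℝ) (n : ℕ) (x : Fin 2 → ℂ) :
    ENNReal.ofReal ((1 + ‖x‖) ^ (2 * n)) * wt (a + n) x = wt a x := by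
  have hX : 0 < 1 + ‖x‖ := by positivity
  rw [wt, wt, ← ENNReal.ofReal_mul (by positivity)]
  congr 1
  rw [← Real.rpow_natCast, ← Real.rpow_add hX]
  congr 1
  push_cast
  ring

/-- The trace function extends and is a polynomial in `x` with holomorphic coefficients. -/
lemma tr_poly {c : Fin 3 → ℂ} (hc : c 2 ≠ 0) {b : ℂ → H379.Q d (d - 1)} (hd : 0 < d)
    (hb : DifferentiableOn ℂ b (ball 0 r)) {B : ℝ} (hB0 : 0 ≤ B)
    (hB : ∀ τ ∈ ball (0 : ℂ) r, ∀ α, ‖b τ α‖ ≤ B) (hne : (Vr c b r).Nonempty)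
    {u : (Fin 3 → ℂ) → ℂ → ℂ} (hu : LocRt c b r u) {a : ℝ} (ha : 0 ≤ a)
    (hi : ∫⁻ y in Vr c b r, (∑ z ∈ rts c b y, ‖u y z‖ₑ ^ 2) * wt a (xp y) ≠ ⊤) (l : ℕ) :
    ∃ cc : ℕ → ℕ → ℂ → ℂ, (∀ j k, DifferentiableOn ℂ (cc j k) (ball 0 r)) ∧
      (∀ j k : ℕ, a + (d - 1 - l : ℕ) - 2 ≤ j + k → ∀ τ ∈ ball (0 : ℂ) r, cc j k τ = 0) ∧
      ∀ J : ℕ, a + (d - 1 - l : ℕ) - 2 ≤ J → ∀ y ∈ Vr c b r,
        tr c b l y (u y) =
          ∑ j ∈ Finset.range J, ∑ k ∈ Finset.range J, cc j k (y 2) * y 0 ^ j * y 1 ^ k := by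
  obtain ⟨C, hC0, hC⟩ := trace_bound hc hd hB0 hB
  have hVo := isOpen_Vr hc hd hb
  have hVU : Vr c b r ⊆ Ud r := fun y hy => ((mem_Vr_iff hc hd).1 hy).1
  set b' : ℝ := a + (d - 1 - l : ℕ) with hb'
  have hb'0 : 0 ≤ b' := by positivity
  -- the weighted bound
  have h1 : ∀ y ∈ Vr c b r, ‖tr c b l y (u y)‖ₑ ^ 2 * wt b' (xp y) ≤
      ENNReal.ofReal C * ((∑ z ∈ rts c b y, ‖u y z‖ₑ ^ 2) * wt a (xp y)) := by
    intro y hy
    have h2 := hC y (hVU hy) l (u y)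
    have h3 : ‖tr c b l y (u y)‖ₑ ^ 2 ≤ ENNReal.ofReal C *
        ENNReal.ofReal ((1 + ‖xp y‖) ^ (2 * (d - 1 - l))) * ∑ z ∈ rts c b y, ‖u y z‖ₑ ^ 2 := by
      have h4 : ∀ w : ℂ, ‖w‖ₑ ^ 2 = ENNReal.ofReal (‖w‖ ^ 2) := fun w => by
        rw [ENNReal.ofReal_pow (norm_nonneg _), ofReal_norm]
      simp only [h4]
      rw [← ENNReal.ofReal_sum_of_nonneg fun z _ => by positivity,
        ← ENNReal.ofReal_mul hC0, ← ENNReal.ofReal_mul (by positivity)]
      exact ENNReal.ofReal_le_ofReal h2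
    calc ‖tr c b l y (u y)‖ₑ ^ 2 * wt b' (xp y)
        ≤ (ENNReal.ofReal C * ENNReal.ofReal ((1 + ‖xp y‖) ^ (2 * (d - 1 - l))) *
            ∑ z ∈ rts c b y, ‖u y z‖ₑ ^ 2) * wt b' (xp y) := by gcongr
      _ = ENNReal.ofReal C * ((∑ z ∈ rts c b y, ‖u y z‖ₑ ^ 2) *
            (ENNReal.ofReal ((1 + ‖xp y‖) ^ (2 * (d - 1 - l))) * wt b' (xp y))) := by ring
      _ = _ := by rw [hb', wt_add]
  have h2 : ∫⁻ y in Vr c b r, ‖tr c b l y (u y)‖ₑ ^ 2 * wt b' (xp y) ≠ ⊤ := by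
    refine ne_top_of_le_ne_top ?_ (setLIntegral_mono' hVo.measurableSet h1)
    rw [lintegral_const_mul' _ _ ENNReal.ofReal_ne_top]
    exact ENNReal.mul_ne_top ENNReal.ofReal_ne_top hi
  -- extension
  obtain ⟨F, hF, hFe⟩ := Vale.Agent.P271.H408.ext_L2 (isOpen_Ud r) (dsc_diff hb)
    (dsc_frequently hc hd hb hne) (f := fun y => tr c b l y (u y))
    ((tr_diff hc hd hb hu l).mono (fun y hy => (mem_Vr_iff hc hd).2 hy)) (by
      intro p hp
      obtain ⟨r₁, hr₁, hr₁U⟩ := Metric.isOpen_iff.1 (isOpen_Ud r) p hp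
      refine ⟨min r₁ 1, lt_min hr₁ one_pos, ?_⟩
      set A : ℝ := (2 + ‖p‖) ^ (2 * b') with hA
      have h3 : ∀ y ∈ ball p (min r₁ 1) ∩ {z | dsc c b z ≠ 0}, ‖tr c b l y (u y)‖ₑ ^ 2 ≤
          ENNReal.ofReal A * (‖tr c b l y (u y)‖ₑ ^ 2 * wt b' (xp y)) := by
        intro y hy
        have hyp : ‖xp y‖ ≤ 1 + ‖p‖ := by
          have h4 : ‖xp y‖ ≤ ‖y‖ := by
            rw [pi_norm_le_iff_of_nonneg (norm_nonneg _)]
            intro i
            fin_cases i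
            · exact norm_le_pi_norm y 0
            · exact norm_le_pi_norm y 1
          have h5 : dist y p < 1 := (mem_ball.1 hy.1).trans_le (min_le_right _ _)
          rw [dist_eq_norm] at h5
          have h6 : ‖y‖ ≤ ‖y - p‖ + ‖p‖ := by
            calc ‖y‖ = ‖(y - p) + p‖ := by congr 1; abel
              _ ≤ _ := norm_add_le _ _
          linarith
        have h7 : (1 : ℝ≥0∞) ≤ ENNReal.ofReal A * wt b' (xp y) := by
          rw [wt, ← ENNReal.ofReal_mul (by positivity), ← ENNReal.ofReal_one]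
          apply ENNReal.ofReal_le_ofReal
          rw [neg_mul, Real.rpow_neg (by positivity), ← div_eq_mul_inv, one_le_div (by positivity)]
          exact Real.rpow_le_rpow (by positivity) (by linarith) (by positivity)
        calc ‖tr c b l y (u y)‖ₑ ^ 2 = 1 * ‖tr c b l y (u y)‖ₑ ^ 2 := (one_mul _).symm
          _ ≤ (ENNReal.ofReal A * wt b' (xp y)) * ‖tr c b l y (u y)‖ₑ ^ 2 := by gcongr
          _ = _ := by ring
      have hsub : ball p (min r₁ 1) ∩ {z | dsc c b z ≠ 0} ⊆ Vr c b r := fun y hy =>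
        (mem_Vr_iff hc hd).2 ⟨hr₁U (ball_subset_ball (min_le_left _ _) hy.1), hy.2⟩
      have hms : MeasurableSet (ball p (min r₁ 1) ∩ {z | dsc c b z ≠ 0}) := by
        have : ball p (min r₁ 1) ∩ {z | dsc c b z ≠ 0} = ball p (min r₁ 1) ∩ Vr c b r :=
          Subset.antisymm (fun y hy => ⟨hy.1, hsub hy⟩)
            fun y hy => ⟨hy.1, ((mem_Vr_iff hc hd).1 hy.2).2⟩
        rw [this]
        exact measurableSet_ball.inter hVo.measurableSet
      refine ne_top_of_le_ne_top ?_ (setLIntegral_mono' hms h3)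
      rw [lintegral_const_mul' _ _ ENNReal.ofReal_ne_top]
      exact ENNReal.mul_ne_top ENNReal.ofReal_ne_top
        (ne_top_of_le_ne_top h2 (lintegral_mono_set hsub)))
  have hFe' : ∀ y ∈ Vr c b r, F y = tr c b l y (u y) := fun y hy =>
    hFe y (hVU hy) ((mem_Vr_iff hc hd).1 hy).2
  have h5 : ∫⁻ y in Ud r, ‖F y‖ₑ ^ 2 * wt b' (xp y) ≠ ⊤ := by
    have h6 : (Vr c b r : Set (Fin 3 → ℂ)) =ᵐ[volume] Ud r :=
      (hVU.eventuallyLE).antisymm (ae_le_set.2 (dsc_null hc hd hb hne))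
    rw [← setLIntegral_congr h6, setLIntegral_congr_fun hVo.measurableSet
      (g := fun y => ‖tr c b l y (u y)‖ₑ ^ 2 * wt b' (xp y)) fun y hy => by rw [hFe' y hy]]
    exact h2
  obtain ⟨cc, hcc, hcc0, hccJ⟩ := poly_of_L2 hF hb'0 h5
  refine ⟨cc, hcc, hcc0, fun J hJ y hy => ?_⟩
  rw [← hFe' y hy]
  exact hccJ J hJ y (hVU hy)

/-- sums over the exponents in `Mon d e` -/
lemma sum_Mon {d e : ℕ} (g : ℕ → ℕ → ℕ → ℂ) {J : ℕ} (hJ : e < J)
    (h0 : ∀ j k l, e < j + k + l → g j k l = 0) :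
    ∑ α : Mon d e, g (α.1 0) (α.1 1) (α.1 2) =
      ∑ l ∈ Finset.range d, ∑ j ∈ Finset.range J, ∑ k ∈ Finset.range J, g j k l := by
  have h1 : ∑ l ∈ Finset.range d, ∑ j ∈ Finset.range J, ∑ k ∈ Finset.range J, g j k l =
      ∑ p ∈ Finset.range d ×ˢ Finset.range J ×ˢ Finset.range J, g p.2.1 p.2.2 p.1 := by
    rw [Finset.sum_product]
    refine Finset.sum_congr rfl fun l _ => ?_
    rw [Finset.sum_product]
  rw [h1]
  refine Finset.sum_of_injOn (fun α : Mon d e => ((α.1 2 : ℕ), (α.1 0 : ℕ), (α.1 1 : ℕ))) ?_ ?_ ?_ ?_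
  · intro α _ β _ hαβ
    simp only [Prod.mk.injEq] at hαβ
    obtain ⟨h2, h3, h4⟩ := hαβ
    apply Subtype.ext
    funext i
    fin_cases i
    · exact Fin.ext h3
    · exact Fin.ext h4
    · exact Fin.ext h2
  · intro α _
    have := α.2.1
    have := α.2.2
    simp only [Finset.coe_product, Finset.coe_range, mem_prod, mem_Iio]
    omega
  · rintro ⟨l, j, k⟩ hp hnot
    simp only [Finset.mem_product, Finset.mem_range] at hp
    apply h0
    by_contra hle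
    push Not at hle
    have hle' : j + k + l ≤ e := hle
    apply hnot
    refine ⟨⟨![⟨j, by omega⟩, ⟨k, by omega⟩, ⟨l, by omega⟩], ?_⟩, Finset.mem_coe.2 (Finset.mem_univ _), rfl⟩
    refine ⟨?_, ?_⟩
    · show j + k + l ≤ e
      exact hle
    · show l < d
      exact hp.1
  · intro α _
    rfl

/-- **OT-C, trace and growth.** -/
theorem otc {c : Fin 3 → ℂ} (hc : c 2 ≠ 0) {b : ℂ → H379.Q d (d - 1)} (hd : 3 < d)
    (hb : DifferentiableOn ℂ b (ball 0 r)) {B : ℝ} (hB0 : 0 ≤ B)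
    (hB : ∀ τ ∈ ball (0 : ℂ) r, ∀ α, ‖b τ α‖ ≤ B) (hne : (Vr c b r).Nonempty)
    {u : (Fin 3 → ℂ) → ℂ → ℂ} (hu : LocRt c b r u) {k : ℝ} (hk : 1 ≤ k)
    (hke : k * ((d : ℝ) - 4) ≤ e)
    (hi : ∫⁻ y in Vr c b r, (∑ z ∈ rts c b y, ‖u y z‖ₑ ^ 2) * wt (e * (1 - 1 / k)) (xp y) ≠ ⊤) :
    ∃ h : ℂ → H379.Q d e, DifferentiableOn ℂ h (ball 0 r) ∧
      ∀ y ∈ Vr c b r, ∀ z, Gf c b (y 2) ![y 0, y 1, z] = 0 →
        ev (h (y 2)) ![y 0, y 1, z] = u y z * pd 2 (Gf c b (y 2)) ![y 0, y 1, z] := by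
  have hk0 : 0 < k := by linarith
  have ha : 0 ≤ (e : ℝ) * (1 - 1 / k) := by
    have : 1 / k ≤ 1 := by rw [div_le_one hk0]; exact hk
    have : 0 ≤ 1 - 1 / k := by linarith
    positivity
  choose cc hcc hcc0 hccJ using fun l => tr_poly hc (by omega : 0 < d) hb hB0 hB hne hu ha hi l
  have hek : (d : ℝ) - 4 ≤ e / k := by
    rw [le_div_iff₀ hk0]
    linarith
  have key : ∀ l < d, (e : ℝ) * (1 - 1 / k) + (d - 1 - l : ℕ) - 2 ≤ (e : ℝ) + 1 - l := by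
    intro l hl
    have h1 : ((d - 1 - l : ℕ) : ℝ) = d - 1 - l := by
      rw [Nat.sub_sub, Nat.cast_sub (by omega)]
      push_cast
      ring
    rw [h1]
    have h2 : (e : ℝ) * (1 - 1 / k) = e - e / k := by ring
    rw [h2]
    linarith
  have hzero : ∀ l < d, ∀ j k', e < j + k' + l → ∀ τ ∈ ball (0 : ℂ) r, cc l j k' τ = 0 := by
    intro l hl j k' hjk τ hτ
    refine hcc0 l j k' ((key l hl).trans ?_) τ hτ
    have : (e : ℝ) + 1 ≤ j + k' + l := by exact_mod_cast hjk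
    linarith
  refine ⟨fun τ α => cc (α.1 2) (α.1 0) (α.1 1) τ, ?_, ?_⟩
  · rw [differentiableOn_pi]
    intro α
    exact hcc _ _ _
  · intro y hy z hz
    have hyτ : y 2 ∈ ball (0 : ℂ) r := mem_ball_zero_iff.2 hy.1
    rw [pd_Gf, ← tr_interp hc (by omega : 0 < d) (u y) (by rw [eval_px]; exact hz)]
    have h1 : ev (fun α : Mon d e => cc (α.1 2) (α.1 0) (α.1 1) (y 2)) ![y 0, y 1, z] =
        ∑ α : Mon d e, (fun j k' l => if l < d then cc l j k' (y 2) * y 0 ^ j * y 1 ^ k' * z ^ l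
          else 0) (α.1 0 : ℕ) (α.1 1 : ℕ) (α.1 2 : ℕ) := by
      unfold ev
      refine Finset.sum_congr rfl fun α _ => ?_
      simp only [Fin.prod_univ_three]
      rw [if_pos α.2.2]
      simp only [Matrix.cons_val_zero, Matrix.cons_val_one, Matrix.cons_val]
      ring
    rw [h1, sum_Mon (fun j k' l => if l < d then cc l j k' (y 2) * y 0 ^ j * y 1 ^ k' * z ^ l
      else 0) (J := e + 2) (by omega)]
    · refine Finset.sum_congr rfl fun l hl => ?_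
      have hld := Finset.mem_range.1 hl
      rw [hccJ l (e + 2) ((key l hld).trans ?_) y hy, Finset.sum_mul]
      · refine Finset.sum_congr rfl fun j _ => ?_
        rw [Finset.sum_mul]
        refine Finset.sum_congr rfl fun k' _ => ?_
        rw [if_pos hld]
      · push_cast
        have : (0 : ℝ) ≤ l := by positivity
        linarith
    · intro j k' l hjk
      split_ifs with hl
      · rw [hzero l hl j k' hjk _ hyτ]
        ring
      · rfl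

end Vale.Agent.P298.H98
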