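import Mathlib.MeasureTheory.Function.Jacobian
import Mathlib.Analysis.Calculus.InverseFunctionTheorem.FDeriv
import Mathlib.MeasureTheory.Constructions.Polish.Basic

/-!
# P298, S1-GEO-R7: area formula with multiplicities

`∫_s |det f'| g = ∫ (∑_{x ∈ s, f x = y} g x) dy` for a local diffeomorphism `f`, and a version for
a space covered by finitely many charts with a partition of unity.
-/

open MeasureTheory Set Filter Topology
open scoped ENNReal

namespace Vale.Agent.P298.H98

variable {E : Type*} [NormedAddCommGroup E] [NormedSpace ℝ E] [FiniteDimensional ℝ E]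
  [MeasurableSpace E] [BorelSpace E] (μ : Measure E) [μ.IsAddHaarMeasure]

/-- the sum of `g` over the fibre `{x ∈ s | f x = y}` -/
noncomputable def fsum {X Y : Type*} (f : X → Y) (s : Set X) (g : X → ℝ≥0∞) (y : Y) : ℝ≥0∞ :=
  ∑' x : X, (s ∩ f ⁻¹' {y}).indicator g x

section fsum

variable {X Y : Type*} {f : X → Y} {s : Set X} {g : X → ℝ≥0∞}

lemma fsum_of_injOn (hi : InjOn f s) {x : X} (hx : x ∈ s) : fsum f s g (f x) = g x := by
  unfold fsum
  rw [tsum_eq_single x]
  · rw [indicator_of_mem]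
    exact ⟨hx, rfl⟩
  · intro z hz
    rw [indicator_of_notMem]
    rintro ⟨hz1, hz2⟩
    exact hz (hi hz1 hx hz2)

lemma fsum_of_notMem {y : Y} (hy : y ∉ f '' s) : fsum f s g y = 0 := by
  unfold fsum
  rw [ENNReal.tsum_eq_zero]
  intro x
  rw [indicator_of_notMem]
  rintro ⟨hx1, hx2⟩
  exact hy ⟨x, hx1, hx2⟩

lemma fsum_iUnion {ι : Type*} {A : ι → Set X} (hd : Pairwise (Function.onFun Disjoint A)) (y : Y) :
    fsum f (⋃ k, A k) g y = ∑' k, fsum f (A k) g y := by
  unfold fsum
  rw [ENNReal.tsum_comm]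
  refine tsum_congr fun x => ?_
  by_cases hx : ∃ k, x ∈ A k ∧ f x = y
  · obtain ⟨k, hk, hy⟩ := hx
    rw [tsum_eq_single k]
    · rw [indicator_of_mem, indicator_of_mem]
      · exact ⟨hk, hy⟩
      · exact ⟨mem_iUnion.2 ⟨k, hk⟩, hy⟩
    · intro l hl
      rw [indicator_of_notMem]
      rintro ⟨h1, -⟩
      exact (disjoint_left.1 (hd hl) h1) hk
  · rw [indicator_of_notMem]
    · symm
      rw [ENNReal.tsum_eq_zero]
      intro k
      rw [indicator_of_notMem]
      rintro ⟨h1, h2⟩
      exact hx ⟨k, h1, h2⟩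
    · rintro ⟨h1, h2⟩
      obtain ⟨k, hk⟩ := mem_iUnion.1 h1
      exact hx ⟨k, hk, h2⟩

lemma fsum_congr {g' : X → ℝ≥0∞} {y : Y} (h : ∀ x ∈ s, f x = y → g x = g' x) :
    fsum f s g y = fsum f s g' y := by
  unfold fsum
  refine tsum_congr fun x => ?_
  by_cases hx : x ∈ s ∩ f ⁻¹' {y}
  · rw [indicator_of_mem hx, indicator_of_mem hx, h x hx.1 hx.2]
  · rw [indicator_of_notMem hx, indicator_of_notMem hx]

lemma fsum_add (g g' : X → ℝ≥0∞) (y : Y) :
    fsum f s (fun x => g x + g' x) y = fsum f s g y + fsum f s g' y := by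
  unfold fsum
  rw [← ENNReal.tsum_add]
  refine tsum_congr fun x => ?_
  by_cases hx : x ∈ s ∩ f ⁻¹' {y}
  · rw [indicator_of_mem hx, indicator_of_mem hx, indicator_of_mem hx]
  · rw [indicator_of_notMem hx, indicator_of_notMem hx, indicator_of_notMem hx, add_zero]

lemma fsum_sum {ι : Type*} (t : Finset ι) (g : ι → X → ℝ≥0∞) (y : Y) :
    fsum f s (fun x => ∑ i ∈ t, g i x) y = ∑ i ∈ t, fsum f s (g i) y := by
  classical
  induction t using Finset.induction_on with
  | empty =>
    simp only [Finset.sum_empty]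
    unfold fsum
    rw [ENNReal.tsum_eq_zero]
    intro x
    by_cases hx : x ∈ s ∩ f ⁻¹' {y}
    · rw [indicator_of_mem hx]
    · rw [indicator_of_notMem hx]
  | insert a t ha ih =>
    simp only [Finset.sum_insert ha]
    rw [fsum_add, ih]

lemma fsum_mono_set {s' : Set X} (h : s ⊆ s') (y : Y) : fsum f s g y ≤ fsum f s' g y := by
  unfold fsum
  refine ENNReal.tsum_le_tsum fun x => ?_
  exact indicator_le_indicator_of_subset (inter_subset_inter_left _ h) (fun _ => zero_le) x

/-- transport along an injection -/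
lemma fsum_comp {Z : Type*} {q : Z → X} {T : Set Z} (hq : InjOn q T)
    (hg : ∀ x ∈ s, x ∉ q '' T → g x = 0) (y : Y) :
    fsum f s g y = fsum (fun z => f (q z)) (T ∩ q ⁻¹' s) (fun z => g (q z)) y := by
  classical
  unfold fsum
  have h1 : ∑' x : X, (s ∩ f ⁻¹' {y}).indicator g x =
      ∑' z : T, (s ∩ f ⁻¹' {y}).indicator g (q z) := by
    have hinj : Function.Injective (fun z : T => q z) := fun a b hab =>
      Subtype.ext (hq a.2 b.2 hab)
    rw [← hinj.tsum_eq]
    intro x hx
    rw [Function.mem_support] at hx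
    by_contra hcon
    apply hx
    by_cases hxs : x ∈ s ∩ f ⁻¹' {y}
    · rw [indicator_of_mem hxs]
      apply hg x hxs.1
      rintro ⟨z, hz, rfl⟩
      exact hcon ⟨⟨z, hz⟩, rfl⟩
    · rw [indicator_of_notMem hxs]
  rw [h1, tsum_subtype T (fun z => (s ∩ f ⁻¹' {y}).indicator g (q z))]
  refine tsum_congr fun z => ?_
  by_cases hz : z ∈ T
  · rw [indicator_of_mem hz]
    by_cases hx : q z ∈ s ∩ f ⁻¹' {y}
    · rw [indicator_of_mem hx, indicator_of_mem]
      exact ⟨⟨hz, hx.1⟩, hx.2⟩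
    · rw [indicator_of_notMem hx, indicator_of_notMem]
      rintro ⟨⟨_, h2⟩, h3⟩
      exact hx ⟨h2, h3⟩
  · rw [indicator_of_notMem hz, indicator_of_notMem]
    rintro ⟨⟨h, _⟩, _⟩
    exact hz h

end fsum

/-- injective piece -/
lemma area_inj {f : E → E} {f' : E → E →L[ℝ] E} {s : Set E} (hs : MeasurableSet s)
    (hf' : ∀ x ∈ s, HasFDerivWithinAt f (f' x) s x) (hi : InjOn f s) (g : E → ℝ≥0∞) :
    ∫⁻ x in s, ENNReal.ofReal |(f' x).det| * g x ∂μ = ∫⁻ y, fsum f s g y ∂μ := by
  have h1 := lintegral_image_eq_lintegral_abs_det_fderiv_mul μ hs hf' hi (fsum f s g)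
  have h2 : ∫⁻ x in s, ENNReal.ofReal |(f' x).det| * fsum f s g (f x) ∂μ =
      ∫⁻ x in s, ENNReal.ofReal |(f' x).det| * g x ∂μ := by
    refine setLIntegral_congr_fun hs fun x hx => ?_
    rw [fsum_of_injOn hi hx]
  rw [← h2, ← h1]
  have hm : MeasurableSet (f '' s) := measurable_image_of_fderivWithin hs hf' hi
  rw [← lintegral_indicator hm]
  refine lintegral_congr fun y => ?_
  by_cases hy : y ∈ f '' s
  · rw [indicator_of_mem hy]
  · rw [indicator_of_notMem hy, fsum_of_notMem hy]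

lemma measurable_fsum_inj {f : E → E} {s : Set E} (hs : MeasurableSet s)
    (hf : ContinuousOn f s) (hi : InjOn f s) {g : E → ℝ≥0∞} (hg : Measurable fun x : s => g x) :
    Measurable (fsum f s g) := by
  have h1 : MeasurableEmbedding (fun x : s => f x) := hf.measurableEmbedding hs hi
  have h2 : fsum f s g = Function.extend (fun x : s => f x) (fun x : s => g x) (fun _ => 0) := by
    funext y
    by_cases hy : ∃ x : s, f x = y
    · obtain ⟨x, rfl⟩ := hy
      rw [h1.injective.extend_apply (fun x : s => g x) (fun _ => 0) x, fsum_of_injOn hi x.2]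
    · rw [Function.extend_apply' _ _ _ hy, fsum_of_notMem]
      rintro ⟨x, hx, rfl⟩
      exact hy ⟨⟨x, hx⟩, rfl⟩
  rw [h2]
  exact h1.measurable_extend hg measurable_const

omit [MeasurableSpace E] [BorelSpace E] in
/-- a strictly differentiable map with invertible derivative is locally injective -/
lemma exists_injOn {f : E → E} {f' : E →L[ℝ] E} {x : E} (h : HasStrictFDerivAt f f' x)
    (hd : f'.det ≠ 0) : ∃ U : Set E, IsOpen U ∧ x ∈ U ∧ InjOn f U := by
  have h' : HasStrictFDerivAt f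
      ((f'.toContinuousLinearEquivOfDetNeZero hd : E ≃L[ℝ] E) : E →L[ℝ] E) x := by
    simpa using h
  refine ⟨(h'.toOpenPartialHomeomorph f).source, (h'.toOpenPartialHomeomorph f).open_source,
    h'.mem_toOpenPartialHomeomorph_source, ?_⟩
  have := (h'.toOpenPartialHomeomorph f).injOn
  simpa using this

/-- countable decomposition in pieces on which the map is injective -/
lemma exists_pieces {f : E → E} {f' : E → E →L[ℝ] E} {s : Set E} (hs : MeasurableSet s)
    (hf' : ∀ x ∈ s, HasStrictFDerivAt f (f' x) x) (hd : ∀ x ∈ s, (f' x).det ≠ 0) :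
    ∃ A : ℕ → Set E, (∀ k, MeasurableSet (A k)) ∧ Pairwise (Function.onFun Disjoint A) ∧
      s = ⋃ k, A k ∧ ∀ k, InjOn f (A k) := by
  choose! U hUo hxU hU using fun x (hx : x ∈ s) => exists_injOn (hf' x hx) (hd x hx)
  obtain ⟨t, hts, htc, hst⟩ := TopologicalSpace.countable_cover_nhdsWithin
    (f := U) (s := s) fun x hx => mem_nhdsWithin_of_mem_nhds ((hUo x hx).mem_nhds (hxU x hx))
  rcases s.eq_empty_or_nonempty with rfl | hne
  · exact ⟨fun _ => ∅, fun _ => MeasurableSet.empty, fun _ _ _ => disjoint_empty _, by simp,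
      fun _ => injOn_empty _⟩
  have htne : t.Nonempty := by
    obtain ⟨x, hx⟩ := hne
    obtain ⟨y, hy, -⟩ := mem_iUnion₂.1 (hst hx)
    exact ⟨y, hy⟩
  obtain ⟨u, hu⟩ := htc.exists_eq_range htne
  have hus : ∀ k, u k ∈ s := fun k => hts (by rw [hu]; exact mem_range_self k)
  let B : ℕ → Set E := fun k => U (u k) ∩ s
  have hB : ∀ k, MeasurableSet (B k) := fun k => (hUo _ (hus k)).measurableSet.inter hs
  refine ⟨disjointed B, fun k => MeasurableSet.disjointed hB k, disjoint_disjointed B, ?_, ?_⟩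
  · rw [iUnion_disjointed]
    apply Subset.antisymm
    · intro x hx
      obtain ⟨y, hy, hxy⟩ := mem_iUnion₂.1 (hst hx)
      rw [hu] at hy
      obtain ⟨k, rfl⟩ := hy
      exact mem_iUnion.2 ⟨k, hxy, hx⟩
    · exact iUnion_subset fun k => inter_subset_right
  · intro k
    exact (hU _ (hus k)).mono ((disjointed_subset B k).trans inter_subset_left)

/-- area formula with multiplicities -/
theorem area {f : E → E} {f' : E → E →L[ℝ] E} {s : Set E} (hs : MeasurableSet s)
    (hf' : ∀ x ∈ s, HasStrictFDerivAt f (f' x) x) (hd : ∀ x ∈ s, (f' x).det ≠ 0)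
    {g : E → ℝ≥0∞} (hg : Measurable fun x : s => g x) :
    Measurable (fsum f s g) ∧
      ∫⁻ x in s, ENNReal.ofReal |(f' x).det| * g x ∂μ = ∫⁻ y, fsum f s g y ∂μ := by
  obtain ⟨A, hA, hdis, hsA, hinj⟩ := exists_pieces hs hf' hd
  have hAs : ∀ k, A k ⊆ s := fun k => by rw [hsA]; exact subset_iUnion A k
  have hm : ∀ k, Measurable (fsum f (A k) g) := by
    intro k
    refine measurable_fsum_inj (hA k) ?_ (hinj k) ?_
    · exact fun x hx => (hf' x (hAs k hx)).continuousAt.continuousWithinAt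
    · exact hg.comp (g := fun x : s => g x) (f := fun x : A k => (⟨x.1, hAs k x.2⟩ : s))
        (Measurable.subtype_mk measurable_subtype_coe)
  have hfs : fsum f s g = fun y => ∑' k, fsum f (A k) g y := by
    funext y
    conv_lhs => rw [hsA]
    exact fsum_iUnion hdis y
  constructor
  · rw [hfs]
    exact Measurable.tsum hm
  · rw [hfs, lintegral_tsum fun k => (hm k).aemeasurable]
    conv_lhs => rw [hsA]
    rw [lintegral_iUnion hA hdis]
    refine tsum_congr fun k => ?_
    exact area_inj μ (hA k) (fun x hx => (hf' x (hAs k hx)).hasFDerivAt.hasFDerivWithinAt)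
      (hinj k) g

/-- **The bridge**: integration over a space with finitely many charts and a partition of unity,
by means of a map `Π` to the model space which is a local diffeomorphism off a null set. -/
theorem bridge {X : Type*} {N : ℕ} {T : Fin N → Set E}
    {q : Fin N → E → X} (hq : ∀ i, InjOn (q i) (T i))
    {ρ : Fin N → X → ℝ≥0∞} (hρ0 : ∀ i x, x ∉ q i '' T i → ρ i x = 0)
    {Good : Set X} (hρ1 : ∀ x ∈ Good, ∑ i, ρ i x = 1) {P : X → E} {δ : X → ℝ≥0∞}
    (hGm : ∀ i, MeasurableSet (T i ∩ q i ⁻¹' Good))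
    (hnull : ∀ i, μ (T i \ q i ⁻¹' Good) = 0)
    {P' : Fin N → E → E →L[ℝ] E}
    (hP : ∀ i, ∀ z ∈ T i, q i z ∈ Good → HasStrictFDerivAt (fun z => P (q i z)) (P' i z) z)
    (hP' : ∀ i, ∀ z ∈ T i, q i z ∈ Good → (P' i z).det ≠ 0)
    {D : Fin N → E → ℝ≥0∞}
    (hD : ∀ i, ∀ z ∈ T i, q i z ∈ Good → D i z = ENNReal.ofReal |(P' i z).det| * δ (q i z))
    (hm : ∀ i, Measurable fun z : (T i ∩ q i ⁻¹' Good : Set E) => ρ i (q i z) * δ (q i z)) :
    Measurable (fsum P Good δ) ∧
    ∑ i, ∫⁻ z in T i, ρ i (q i z) * D i z ∂μ = ∫⁻ y, fsum P Good δ y ∂μ := by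
  have key : ∀ i, Measurable (fsum P Good fun x => ρ i x * δ x) ∧
      ∫⁻ z in T i, ρ i (q i z) * D i z ∂μ = ∫⁻ y, fsum P Good (fun x => ρ i x * δ x) y ∂μ := by
    intro i
    have h1 : fsum P Good (fun x => ρ i x * δ x) =
        fsum (fun z => P (q i z)) (T i ∩ q i ⁻¹' Good) (fun z => ρ i (q i z) * δ (q i z)) := by
      funext y
      exact fsum_comp (hq i) (fun x _ hx => by rw [hρ0 i x hx, zero_mul]) y
    obtain ⟨h2, h3⟩ := area μ (hGm i) (fun z hz => hP i z hz.1 hz.2) (fun z hz => hP' i z hz.1 hz.2)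
      (g := fun z => ρ i (q i z) * δ (q i z)) (hm i)
    refine ⟨by rw [h1]; exact h2, ?_⟩
    rw [h1, ← h3]
    have h4 : ∫⁻ z in T i, ρ i (q i z) * D i z ∂μ =
        ∫⁻ z in T i ∩ q i ⁻¹' Good, ρ i (q i z) * D i z ∂μ := by
      have h5 : (T i ∩ q i ⁻¹' Good : Set E) =ᵐ[μ] T i := by
        refine (inter_subset_left.eventuallyLE).antisymm ?_
        have : (T i \ (T i ∩ q i ⁻¹' Good) : Set E) = T i \ q i ⁻¹' Good := by
          ext z; simp
        exact ae_le_set.2 (by rw [this]; exact hnull i)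
      exact (setLIntegral_congr h5).symm
    rw [h4]
    refine setLIntegral_congr_fun (hGm i) fun z hz => ?_
    rw [hD i z hz.1 hz.2]
    ring
  have h6 : fsum P Good δ = fun y => ∑ i, fsum P Good (fun x => ρ i x * δ x) y := by
    funext y
    rw [← fsum_sum]
    refine fsum_congr fun x hx _ => ?_
    rw [← Finset.sum_mul, hρ1 x hx, one_mul]
  refine ⟨by rw [h6]; exact Finset.measurable_fun_sum _ fun i _ => (key i).1, ?_⟩
  rw [h6, lintegral_finsetSum _ fun i _ => (key i).1]
  exact Finset.sum_congr rfl fun i _ => (key i).2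

end Vale.Agent.P298.H98
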