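import Vale.Agent.P271.H408.Mean
import Vale.Agent.P268.Hol

/-!
# P298, OT-C: entire functions with a finite weighted `L²` norm are polynomials (with a parameter)
-/

open MeasureTheory Set Filter Topology Metric
open scoped ENNReal

namespace Vale.Agent.P298.H98

/-- the weight `(1 + ‖x‖)^(-2 b)` -/
noncomputable def wt (b : ℝ) (x : Fin 2 → ℂ) : ℝ≥0∞ := ENNReal.ofReal ((1 + ‖x‖) ^ (-2 * b))

lemma wt_continuous (b : ℝ) : Continuous (wt b) := by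
  unfold wt
  refine ENNReal.continuous_ofReal.comp ?_
  refine Continuous.rpow_const (by fun_prop) fun x => Or.inl ?_
  positivity

/-- tails of a finite integral -/
lemma tail_tendsto {g : (Fin 2 → ℂ) → ℝ≥0∞} (hg : ∫⁻ x, g x ≠ ⊤) :
    Tendsto (fun n : ℕ => ∫⁻ x in {x | (n : ℝ) ≤ ‖x‖}, g x) atTop (𝓝 0) := by
  have hms : ∀ n : ℕ, MeasurableSet {x : Fin 2 → ℂ | (n : ℝ) ≤ ‖x‖} := fun n =>
    (isClosed_le continuous_const continuous_norm).measurableSet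
  have h1 : ∀ n : ℕ, ∫⁻ x in {x : Fin 2 → ℂ | (n : ℝ) ≤ ‖x‖}, g x =
      (volume.withDensity g) {x : Fin 2 → ℂ | (n : ℝ) ≤ ‖x‖} := fun n =>
    (withDensity_apply _ (hms n)).symm
  simp only [h1]
  have h2 : (⋂ n : ℕ, {x : Fin 2 → ℂ | (n : ℝ) ≤ ‖x‖}) = ∅ := by
    ext x
    simp only [mem_iInter, mem_ofPred_eq, mem_empty_iff_false, iff_false, not_forall, not_le]
    exact exists_nat_gt ‖x‖
  have h3 := tendsto_measure_iInter_atTop (μ := volume.withDensity g)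
    (s := fun n : ℕ => {x : Fin 2 → ℂ | (n : ℝ) ≤ ‖x‖})
    (fun n => (hms n).nullMeasurableSet) (fun m n hmn x hx => by
      simp only [mem_ofPred_eq] at hx ⊢
      exact le_trans (by exact_mod_cast hmn) hx)
    ⟨0, by
      rw [← h1]
      exact ne_top_of_le_ne_top hg (setLIntegral_le_lintegral _ _)⟩
  rw [h2, measure_empty] at h3
  exact h3

/-- pointwise growth -/
lemma growth {f : (Fin 2 → ℂ) → ℂ} (hf : Differentiable ℂ f) {b : ℝ} (hb : 0 ≤ b)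
    (hi : ∫⁻ x, ‖f x‖ₑ ^ 2 * wt b x ≠ ⊤) {ε : ℝ} (hε : 0 < ε) :
    ∃ R₀ : ℝ, ∀ x, R₀ ≤ ‖x‖ → ‖f x‖ ≤ ε * (1 + ‖x‖) ^ (b - 2) := by
  -- the constant
  set C : ℝ := 2 ^ (2 * b) * 256 / Real.pi ^ 2 with hC
  have hC0 : 0 < C := by positivity
  obtain ⟨N, hN⟩ := ((tendsto_order.1 (tail_tendsto hi)).2 (ENNReal.ofReal (ε ^ 2 / C))
    (ENNReal.ofReal_pos.2 (by positivity))).exists
  refine ⟨max 1 (2 * N), fun x hx => ?_⟩
  have hx1 : 1 ≤ ‖x‖ := (le_max_left _ _).trans hx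
  have hx2 : 2 * (N : ℝ) ≤ ‖x‖ := (le_max_right _ _).trans hx
  have hr : 0 < ‖x‖ / 2 := by linarith
  have h1 := Vale.Agent.P271.H408.enorm_sq_mul_volume_le (z := x) (r := ‖x‖ / 2) hf.differentiableOn
  -- volume of the ball
  have hvol : volume (ball x (‖x‖ / 2)) = ENNReal.ofReal ((Real.pi * (‖x‖ / 2) ^ 2) ^ 2) := by
    rw [ball_pi _ hr, volume_pi_pi]
    simp only [Complex.volume_ball, Fin.prod_univ_two]
    rw [← ENNReal.ofReal_pow hr.le]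
    have : ((NNReal.pi : NNReal) : ℝ≥0∞) = ENNReal.ofReal Real.pi := by
      rw [← ENNReal.ofReal_coe_nnreal, NNReal.coe_real_pi]
    rw [this, ← ENNReal.ofReal_mul (by positivity), ← ENNReal.ofReal_mul (by positivity)]
    congr 1
    ring
  -- bound of the integral over the ball
  have h2 : ∫⁻ y in ball x (‖x‖ / 2), ‖f y‖ₑ ^ 2 ≤
      ENNReal.ofReal ((2 * (1 + ‖x‖)) ^ (2 * b)) * ENNReal.ofReal (ε ^ 2 / C) := by
    calc ∫⁻ y in ball x (‖x‖ / 2), ‖f y‖ₑ ^ 2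
        ≤ ∫⁻ y in ball x (‖x‖ / 2), ENNReal.ofReal ((2 * (1 + ‖x‖)) ^ (2 * b)) *
            (‖f y‖ₑ ^ 2 * wt b y) := by
          refine setLIntegral_mono' measurableSet_ball fun y hy => ?_
          rw [mem_ball, dist_eq_norm] at hy
          have hyn : ‖y‖ ≤ 2 * ‖x‖ := by
            calc ‖y‖ = ‖(y - x) + x‖ := by congr 1; abel
              _ ≤ ‖y - x‖ + ‖x‖ := norm_add_le _ _
              _ ≤ 2 * ‖x‖ := by linarith
          have h3 : (1 : ℝ) ≤ (2 * (1 + ‖x‖)) ^ (2 * b) * (1 + ‖y‖) ^ (-2 * b) := by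
            rw [neg_mul, Real.rpow_neg (by positivity), ← div_eq_mul_inv, one_le_div (by positivity)]
            exact Real.rpow_le_rpow (by positivity) (by linarith [norm_nonneg y]) (by linarith)
          calc ‖f y‖ₑ ^ 2 = 1 * ‖f y‖ₑ ^ 2 := (one_mul _).symm
            _ ≤ (ENNReal.ofReal ((2 * (1 + ‖x‖)) ^ (2 * b)) * wt b y) * ‖f y‖ₑ ^ 2 := by
              gcongr
              rw [wt, ← ENNReal.ofReal_mul (by positivity), ← ENNReal.ofReal_one]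
              exact ENNReal.ofReal_le_ofReal h3
            _ = _ := by ring
      _ = ENNReal.ofReal ((2 * (1 + ‖x‖)) ^ (2 * b)) *
            ∫⁻ y in ball x (‖x‖ / 2), ‖f y‖ₑ ^ 2 * wt b y :=
          lintegral_const_mul' _ _ ENNReal.ofReal_ne_top
      _ ≤ ENNReal.ofReal ((2 * (1 + ‖x‖)) ^ (2 * b)) *
            ∫⁻ y in {y | (N : ℝ) ≤ ‖y‖}, ‖f y‖ₑ ^ 2 * wt b y := by
          gcongr
          intro y hy
          rw [mem_ball, dist_eq_norm] at hy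
          have : ‖x‖ ≤ ‖y - x‖ + ‖y‖ := by
            calc ‖x‖ = ‖y - (y - x)‖ := by congr 1; abel
              _ ≤ ‖y‖ + ‖y - x‖ := norm_sub_le _ _
              _ = _ := add_comm _ _
          simp only [mem_ofPred_eq]
          linarith
      _ ≤ _ := by gcongr
  rw [hvol] at h1
  have h3 := h1.trans h2
  have h4 : ‖f x‖ₑ ^ 2 = ENNReal.ofReal (‖f x‖ ^ 2) := by
    rw [ENNReal.ofReal_pow (norm_nonneg _), ofReal_norm]
  rw [h4, ← ENNReal.ofReal_mul (by positivity), ← ENNReal.ofReal_mul (by positivity),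
    ENNReal.ofReal_le_ofReal_iff (by positivity)] at h3
  -- real computation
  have hx0 : 0 < 1 + ‖x‖ := by positivity
  have h5 : (2 * (1 + ‖x‖)) ^ (2 * b) = 2 ^ (2 * b) * (1 + ‖x‖) ^ (2 * b) :=
    Real.mul_rpow (by norm_num) hx0.le
  have h6 : ((1 + ‖x‖) ^ (b - 2)) ^ 2 * (1 + ‖x‖) ^ 4 = (1 + ‖x‖) ^ (2 * b) := by
    rw [← Real.rpow_natCast ((1 + ‖x‖) ^ (b - 2)) 2, ← Real.rpow_mul hx0.le,
      ← Real.rpow_natCast (1 + ‖x‖) 4, ← Real.rpow_add hx0]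
    congr 1
    push_cast
    ring
  have h7 : (1 + ‖x‖) ^ 4 ≤ 16 * ‖x‖ ^ 4 := by
    calc (1 + ‖x‖) ^ 4 ≤ (2 * ‖x‖) ^ 4 := by gcongr; linarith
      _ = 16 * ‖x‖ ^ 4 := by ring
  have hpi : 0 < Real.pi ^ 2 := by positivity
  have h8 : ‖f x‖ ^ 2 ≤ (ε * (1 + ‖x‖) ^ (b - 2)) ^ 2 := by
    rw [h5] at h3
    have h9 : ‖f x‖ ^ 2 * (Real.pi * (‖x‖ / 2) ^ 2) ^ 2 = ‖f x‖ ^ 2 * ‖x‖ ^ 4 * (Real.pi ^ 2 / 16) := by
      ring
    rw [h9, hC] at h3
    have h10 : 2 ^ (2 * b) * (1 + ‖x‖) ^ (2 * b) * (ε ^ 2 / (2 ^ (2 * b) * 256 / Real.pi ^ 2)) =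
        ε ^ 2 * (1 + ‖x‖) ^ (2 * b) * (Real.pi ^ 2 / 256) := by
      have : (2 : ℝ) ^ (2 * b) ≠ 0 := by positivity
      field_simp
    rw [h10] at h3
    have h11 : ‖f x‖ ^ 2 * ‖x‖ ^ 4 * 16 ≤ ε ^ 2 * (1 + ‖x‖) ^ (2 * b) := by
      have h12 : (‖f x‖ ^ 2 * ‖x‖ ^ 4 * 16) * (Real.pi ^ 2 / 256) ≤
          (ε ^ 2 * (1 + ‖x‖) ^ (2 * b)) * (Real.pi ^ 2 / 256) := by
        calc _ = ‖f x‖ ^ 2 * ‖x‖ ^ 4 * (Real.pi ^ 2 / 16) := by ring
          _ ≤ _ := h3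
      exact le_of_mul_le_mul_right h12 (by positivity)
    rw [← h6] at h11
    have h13 : ‖f x‖ ^ 2 * (1 + ‖x‖) ^ 4 ≤
        (ε ^ 2 * ((1 + ‖x‖) ^ (b - 2)) ^ 2) * (1 + ‖x‖) ^ 4 := by
      calc ‖f x‖ ^ 2 * (1 + ‖x‖) ^ 4 ≤ ‖f x‖ ^ 2 * (16 * ‖x‖ ^ 4) := by gcongr
        _ = ‖f x‖ ^ 2 * ‖x‖ ^ 4 * 16 := by ring
        _ ≤ _ := h11
        _ = _ := by ring
    rw [mul_pow]
    exact le_of_mul_le_mul_right h13 (by positivity)
  exact le_of_sq_le_sq h8 (by positivity)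

/-! ### Taylor coefficients in a coordinate direction -/

/-- base points `(x₀, x₁, τ)` -/
def mk3 (x : Fin 2 → ℂ) (τ : ℂ) : Fin 3 → ℂ := ![x 0, x 1, τ]

/-- base coordinates -/
def xp (y : Fin 3 → ℂ) : Fin 2 → ℂ := ![y 0, y 1]

lemma mk3_xp (y : Fin 3 → ℂ) : mk3 (xp y) (y 2) = y := by
  funext i
  fin_cases i <;> rfl

@[simp] lemma xp_mk3 (x : Fin 2 → ℂ) (τ : ℂ) : xp (mk3 x τ) = x := by
  funext i
  fin_cases i <;> rfl

@[simp] lemma mk3_two (x : Fin 2 → ℂ) (τ : ℂ) : mk3 x τ 2 = τ := rfl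

/-- the domain `ℂ² × {|τ| < δ}` -/
def Ud (δ : ℝ) : Set (Fin 3 → ℂ) := {y | ‖y 2‖ < δ}

lemma isOpen_Ud (δ : ℝ) : IsOpen (Ud δ) :=
  isOpen_lt (by fun_prop) continuous_const

/-- `n`-th Taylor coefficient of `F` in the direction of the `i`-th coordinate -/
noncomputable def tc (n : ℕ) (i : Fin 3) (F : (Fin 3 → ℂ) → ℂ) (y : Fin 3 → ℂ) : ℂ :=
  ((n.factorial : ℂ))⁻¹ * iteratedFDeriv ℂ n F y (fun _ => Pi.single i 1)

lemma tc_diff {U : Set (Fin 3 → ℂ)} (hU : IsOpen U) {F : (Fin 3 → ℂ) → ℂ}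
    (hF : DifferentiableOn ℂ F U) (n : ℕ) (i : Fin 3) : DifferentiableOn ℂ (tc n i F) U := by
  have h1 : AnalyticOnNhd ℂ F U := Vale.Agent.P268.analyticOnNhd_of_differentiableOn hU hF
  have h2 : DifferentiableOn ℂ (iteratedFDeriv ℂ n F) U := (h1.iteratedFDeriv n).differentiableOn
  have h3 : DifferentiableOn ℂ (fun y => iteratedFDeriv ℂ n F y (fun _ => Pi.single i 1)) U := by
    have := (ContinuousMultilinearMap.apply ℂ (fun _ : Fin n => Fin 3 → ℂ) ℂ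
      (fun _ => Pi.single i 1)).differentiable.comp_differentiableOn h2
    exact this
  exact h3.const_mul _

lemma tc_line {U : Set (Fin 3 → ℂ)} (hU : IsOpen U) {F : (Fin 3 → ℂ) → ℂ}
    (hF : DifferentiableOn ℂ F U) (n : ℕ) (i : Fin 3) {y : Fin 3 → ℂ} (hy : y ∈ U) :
    iteratedDeriv n (fun s : ℂ => F (y + s • Pi.single i 1)) 0 = (n.factorial : ℂ) * tc n i F y := by
  rw [Vale.Agent.P268.iteratedDeriv_line hU
    (Vale.Agent.P268.contDiffOn_of_differentiableOn hU hF n) (by simpa using hy), tc]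
  have : (n.factorial : ℂ) ≠ 0 := by exact_mod_cast n.factorial_ne_zero
  rw [mul_inv_cancel_left₀ this]
  simp

lemma line_diff {U : Set (Fin 3 → ℂ)} (hU : IsOpen U) {F : (Fin 3 → ℂ) → ℂ}
    (hF : DifferentiableOn ℂ F U) (i : Fin 3) {y : Fin 3 → ℂ}
    (hl : ∀ s : ℂ, y + s • (Pi.single i 1 : Fin 3 → ℂ) ∈ U) :
    Differentiable ℂ (fun s : ℂ => F (y + s • Pi.single i 1)) := by
  intro s
  have h1 : DifferentiableAt ℂ F (y + s • Pi.single i 1) := hF.differentiableAt (hU.mem_nhds (hl s))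
  have h2 : DifferentiableAt ℂ (fun s : ℂ => y + s • (Pi.single i 1 : Fin 3 → ℂ)) s := by fun_prop
  exact h1.comp s h2

lemma tc_hasSum {U : Set (Fin 3 → ℂ)} (hU : IsOpen U) {F : (Fin 3 → ℂ) → ℂ}
    (hF : DifferentiableOn ℂ F U) (i : Fin 3) {y : Fin 3 → ℂ}
    (hl : ∀ s : ℂ, y + s • (Pi.single i 1 : Fin 3 → ℂ) ∈ U) (s : ℂ) :
    HasSum (fun n => tc n i F y * s ^ n) (F (y + s • Pi.single i 1)) := by
  have h1 := Complex.hasSum_taylorSeries_of_entire (line_diff hU hF i hl) 0 s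
  have hy : y ∈ U := by simpa using hl 0
  simp only [sub_zero, smul_eq_mul, tc_line hU hF _ i hy] at h1
  have h2 : (fun n => tc n i F y * s ^ n) =
      fun n => ((n.factorial : ℂ))⁻¹ * (s ^ n * ((n.factorial : ℂ) * tc n i F y)) := by
    funext n
    have : (n.factorial : ℂ) ≠ 0 := by exact_mod_cast n.factorial_ne_zero
    field_simp
  rw [h2]
  exact h1

lemma tc_bound {U : Set (Fin 3 → ℂ)} (hU : IsOpen U) {F : (Fin 3 → ℂ) → ℂ}
    (hF : DifferentiableOn ℂ F U) (n : ℕ) (i : Fin 3) {y : Fin 3 → ℂ}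
    (hl : ∀ s : ℂ, y + s • (Pi.single i 1 : Fin 3 → ℂ) ∈ U) {R C : ℝ} (hR : 0 < R)
    (hC : ∀ s : ℂ, ‖s‖ = R → ‖F (y + s • Pi.single i 1)‖ ≤ C) : ‖tc n i F y‖ ≤ C / R ^ n := by
  have hy : y ∈ U := by simpa using hl 0
  have h1 := Complex.norm_iteratedDeriv_le_of_forall_mem_sphere_norm_le (c := 0) n hR
    (line_diff hU hF i hl).diffContOnCl (fun z hz => hC z (by simpa using hz))
  rw [tc_line hU hF n i hy, norm_mul, Complex.norm_natCast, mul_div_assoc] at h1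
  exact le_of_mul_le_mul_left h1 (by exact_mod_cast n.factorial_pos)

/-- the mixed Taylor coefficient `c_{jk}(τ)` -/
noncomputable def cjk (F : (Fin 3 → ℂ) → ℂ) (j k : ℕ) (τ : ℂ) : ℂ :=
  tc k 1 (tc j 0 F) (mk3 0 τ)

lemma mk3_add0 (x : Fin 2 → ℂ) (τ s : ℂ) :
    mk3 x τ + s • (Pi.single 0 1 : Fin 3 → ℂ) = mk3 ![x 0 + s, x 1] τ := by
  funext i
  fin_cases i <;> simp [mk3]

lemma mk3_add1 (x : Fin 2 → ℂ) (τ s : ℂ) :
    mk3 x τ + s • (Pi.single 1 1 : Fin 3 → ℂ) = mk3 ![x 0, x 1 + s] τ := by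
  funext i
  fin_cases i <;> simp [mk3]

lemma mk3_mem {δ : ℝ} (x : Fin 2 → ℂ) {τ : ℂ} (hτ : ‖τ‖ < δ) : mk3 x τ ∈ Ud δ := hτ

lemma line_mem {δ : ℝ} {y : Fin 3 → ℂ} (hy : y ∈ Ud δ) (i : Fin 3) (hi : i ≠ 2) (s : ℂ) :
    y + s • (Pi.single i 1 : Fin 3 → ℂ) ∈ Ud δ := by
  have h1 : (y + s • (Pi.single i 1 : Fin 3 → ℂ)) 2 = y 2 := by
    simp [hi.symm]
  show ‖(y + s • (Pi.single i 1 : Fin 3 → ℂ)) 2‖ < δ
  rw [h1]
  exact hy

lemma cjk_diff {δ : ℝ} {F : (Fin 3 → ℂ) → ℂ} (hF : DifferentiableOn ℂ F (Ud δ)) (j k : ℕ) :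
    DifferentiableOn ℂ (cjk F j k) (ball 0 δ) := by
  have h1 := tc_diff (isOpen_Ud δ) (tc_diff (isOpen_Ud δ) hF j 0) k 1
  refine h1.comp (t := Ud δ) ?_ ?_
  · have : Differentiable ℂ (mk3 0) := by
      rw [differentiable_pi]
      intro i
      fin_cases i
      · simp [mk3]
      · simp [mk3]
      · simp only [mk3]
        exact differentiable_id
    exact this.differentiableOn
  · intro τ hτ
    exact mk3_mem 0 (by simpa using hτ)

/-- vanishing of the high coefficients, for one `τ` -/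
lemma cjk_zero {δ : ℝ} {F : (Fin 3 → ℂ) → ℂ} (hF : DifferentiableOn ℂ F (Ud δ)) {b : ℝ} {τ : ℂ}
    (hτ : ‖τ‖ < δ) (hg : ∀ ε : ℝ, 0 < ε → ∃ R₀ : ℝ, ∀ x, R₀ ≤ ‖x‖ →
      ‖F (mk3 x τ)‖ ≤ ε * (1 + ‖x‖) ^ (b - 2)) {j k : ℕ} (hjk : b - 2 ≤ j + k) :
    cjk F j k τ = 0 := by
  have hU := isOpen_Ud δ
  have key : ∀ ε : ℝ, 0 < ε → ‖cjk F j k τ‖ ≤ ε * 2 ^ (j + k) := by
    intro ε hε
    obtain ⟨R₀, hR₀⟩ := hg ε hε
    set R : ℝ := max 1 R₀ with hR
    have hR1 : 1 ≤ R := le_max_left _ _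
    have hR0 : 0 < R := by linarith
    have hb : (1 + R) ^ (b - 2) ≤ 2 ^ (j + k) * R ^ (j + k) := by
      calc (1 + R) ^ (b - 2) ≤ (1 + R) ^ ((j : ℝ) + k) :=
            Real.rpow_le_rpow_of_exponent_le (by linarith) hjk
        _ = (1 + R) ^ (j + k) := by
            rw [← Real.rpow_natCast]
            push_cast
            rfl
        _ ≤ (2 * R) ^ (j + k) := by gcongr; linarith
        _ = _ := by rw [mul_pow]
    -- inner bound
    have h1 : ∀ s : ℂ, ‖s‖ = R → ‖tc j 0 F (mk3 0 τ + s • Pi.single 1 1)‖ ≤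
        (ε * (1 + R) ^ (b - 2)) / R ^ j := by
      intro s hs
      have hy : mk3 0 τ + s • (Pi.single 1 1 : Fin 3 → ℂ) ∈ Ud δ :=
        line_mem (mk3_mem 0 hτ) 1 (by decide) s
      refine tc_bound hU hF j 0 (fun z => line_mem hy 0 (by decide) z) hR0 fun z hz => ?_
      rw [mk3_add1, mk3_add0]
      have hn : ‖(![(![(0 : Fin 2 → ℂ) 0, (0 : Fin 2 → ℂ) 1 + s] : Fin 2 → ℂ) 0 + z,
          (![(0 : Fin 2 → ℂ) 0, (0 : Fin 2 → ℂ) 1 + s] : Fin 2 → ℂ) 1] : Fin 2 → ℂ)‖ = R := by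
        apply le_antisymm
        · rw [pi_norm_le_iff_of_nonneg hR0.le]
          intro i
          fin_cases i
          · simp [hz]
          · simp [hs]
        · rw [← hs]
          have := norm_le_pi_norm (![(![(0 : Fin 2 → ℂ) 0, (0 : Fin 2 → ℂ) 1 + s] : Fin 2 → ℂ) 0 + z,
            (![(0 : Fin 2 → ℂ) 0, (0 : Fin 2 → ℂ) 1 + s] : Fin 2 → ℂ) 1] : Fin 2 → ℂ) 1
          simpa using this
      have := hR₀ _ (by rw [hn]; exact le_max_right _ _)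
      rw [hn] at this
      exact this
    have h2 := tc_bound hU (tc_diff hU hF j 0) k 1 (fun z => line_mem (mk3_mem 0 hτ) 1 (by decide) z)
      hR0 h1
    calc ‖cjk F j k τ‖ ≤ (ε * (1 + R) ^ (b - 2)) / R ^ j / R ^ k := h2
      _ ≤ (ε * (2 ^ (j + k) * R ^ (j + k))) / R ^ j / R ^ k := by gcongr
      _ = ε * 2 ^ (j + k) := by
          have : R ≠ 0 := hR0.ne'
          field_simp
          ring
  by_contra hne
  have hpos : 0 < ‖cjk F j k τ‖ := norm_pos_iff.2 hne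
  have h3 := key (‖cjk F j k τ‖ / 2 / 2 ^ (j + k)) (by positivity)
  have h4 : ‖cjk F j k τ‖ / 2 / 2 ^ (j + k) * 2 ^ (j + k) = ‖cjk F j k τ‖ / 2 := by
    field_simp
  rw [h4] at h3
  linarith

/-- expansion, once the high coefficients vanish -/
lemma expand {δ : ℝ} {F : (Fin 3 → ℂ) → ℂ} (hF : DifferentiableOn ℂ F (Ud δ)) {J : ℕ}
    (hz : ∀ j k, J ≤ j + k → ∀ τ ∈ ball (0 : ℂ) δ, cjk F j k τ = 0) {y : Fin 3 → ℂ}
    (hy : y ∈ Ud δ) :
    F y = ∑ j ∈ Finset.range J, ∑ k ∈ Finset.range J, cjk F j k (y 2) * y 0 ^ j * y 1 ^ k := by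
  have hU := isOpen_Ud δ
  have hτ : ‖y 2‖ < δ := hy
  have h1 : ∀ j, tc j 0 F (mk3 ![0, y 1] (y 2)) =
      ∑ k ∈ Finset.range J, cjk F j k (y 2) * y 1 ^ k := by
    intro j
    have h2 := tc_hasSum hU (tc_diff hU hF j 0) 1 (y := mk3 0 (y 2))
      (fun z => line_mem (mk3_mem 0 hτ) 1 (by decide) z) (y 1)
    have h3 : mk3 0 (y 2) + y 1 • (Pi.single 1 1 : Fin 3 → ℂ) = mk3 ![0, y 1] (y 2) := by
      rw [mk3_add1]
      simp
    rw [h3] at h2
    have h4 : HasSum (fun n => tc n 1 (tc j 0 F) (mk3 0 (y 2)) * y 1 ^ n)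
        (∑ k ∈ Finset.range J, tc k 1 (tc j 0 F) (mk3 0 (y 2)) * y 1 ^ k) := by
      refine hasSum_sum_of_ne_finset_zero fun k hk => ?_
      have := hz j k (by simp only [Finset.mem_range, not_lt] at hk; omega) (y 2) (by simpa using hτ)
      rw [cjk] at this
      rw [this, zero_mul]
    exact h2.unique h4
  have h5 := tc_hasSum hU hF 0 (y := mk3 ![0, y 1] (y 2))
      (fun z => line_mem (mk3_mem _ hτ) 0 (by decide) z) (y 0)
  have h6 : mk3 ![0, y 1] (y 2) + y 0 • (Pi.single 0 1 : Fin 3 → ℂ) = y := by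
    rw [mk3_add0]
    funext i
    fin_cases i <;> simp [mk3]
  rw [h6] at h5
  have h7 : HasSum (fun n => tc n 0 F (mk3 ![0, y 1] (y 2)) * y 0 ^ n)
      (∑ j ∈ Finset.range J, tc j 0 F (mk3 ![0, y 1] (y 2)) * y 0 ^ j) := by
    refine hasSum_sum_of_ne_finset_zero fun j hj => ?_
    rw [h1 j, Finset.sum_eq_zero, zero_mul]
    intro k _
    rw [hz j k (by simp only [Finset.mem_range, not_lt] at hj; omega) (y 2) (by simpa using hτ),
      zero_mul]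
  rw [h5.unique h7]
  refine Finset.sum_congr rfl fun j _ => ?_
  rw [h1 j, Finset.sum_mul]
  refine Finset.sum_congr rfl fun k _ => ?_
  ring

/-! ### Fubini -/

lemma lintegral_mk3 {g : (Fin 3 → ℂ) → ℝ≥0∞} (hg : AEMeasurable g) (hi : ∫⁻ y, g y ≠ ⊤) :
    ∀ᵐ τ : ℂ, ∫⁻ x : Fin 2 → ℂ, g (mk3 x τ) < ⊤ := by
  have hp := volume_preserving_piFinSuccAbove (fun _ : Fin 3 => ℂ) 2
  have h1 : ∀ p : ℂ × (Fin 2 → ℂ), (MeasurableEquiv.piFinSuccAbove (fun _ : Fin 3 => ℂ) 2).symm p =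
      mk3 p.2 p.1 := by
    intro p
    rw [MeasurableEquiv.symm_apply_eq]
    ext i
    · rfl
    · fin_cases i <;> rfl
  have h2 : ∫⁻ y, g y = ∫⁻ p : ℂ × (Fin 2 → ℂ), g (mk3 p.2 p.1) := by
    rw [← (hp.symm _).lintegral_comp_emb (MeasurableEquiv.measurableEmbedding _)]
    simp only [h1]
  have h3 : AEMeasurable (fun p : ℂ × (Fin 2 → ℂ) => g (mk3 p.2 p.1)) := by
    have := hg.comp_quasiMeasurePreserving (hp.symm _).quasiMeasurePreserving
    refine this.congr (Eventually.of_forall fun p => ?_)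
    simp only [Function.comp_apply, h1]
  rw [h2] at hi
  rw [Measure.volume_eq_prod, lintegral_prod _ h3] at hi
  exact ae_lt_top' h3.lintegral_prod_right' hi

/-- **Polynomial growth with a parameter.** -/
theorem poly_of_L2 {δ : ℝ} {F : (Fin 3 → ℂ) → ℂ} (hF : DifferentiableOn ℂ F (Ud δ)) {b : ℝ}
    (hb : 0 ≤ b) (hi : ∫⁻ y in Ud δ, ‖F y‖ₑ ^ 2 * wt b (xp y) ≠ ⊤) :
    ∃ c : ℕ → ℕ → ℂ → ℂ, (∀ j k, DifferentiableOn ℂ (c j k) (ball 0 δ)) ∧
      (∀ j k : ℕ, b - 2 ≤ j + k → ∀ τ ∈ ball (0 : ℂ) δ, c j k τ = 0) ∧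
      ∀ J : ℕ, b - 2 ≤ J → ∀ y ∈ Ud δ,
        F y = ∑ j ∈ Finset.range J, ∑ k ∈ Finset.range J, c j k (y 2) * y 0 ^ j * y 1 ^ k := by
  have hU := isOpen_Ud δ
  -- almost every slice is good
  have hae : ∀ᵐ τ ∂(volume.restrict (ball (0 : ℂ) δ)),
      ∫⁻ x : Fin 2 → ℂ, ‖F (mk3 x τ)‖ₑ ^ 2 * wt b x ≠ ⊤ := by
    have h1 : AEMeasurable ((Ud δ).indicator fun y => ‖F y‖ₑ ^ 2 * wt b (xp y)) := by
      rw [aemeasurable_indicator_iff hU.measurableSet]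
      have h5 : AEMeasurable (fun y => ‖F y‖ₑ ^ 2) (volume.restrict (Ud δ)) :=
        (hF.continuousOn.aemeasurable hU.measurableSet).enorm.pow_const _
      have h6 : Continuous fun y => wt b (xp y) := by
        refine (wt_continuous b).comp ?_
        unfold xp
        fun_prop
      exact h5.mul h6.aemeasurable
    have h2 : ∫⁻ y, (Ud δ).indicator (fun y => ‖F y‖ₑ ^ 2 * wt b (xp y)) y ≠ ⊤ := by
      rwa [lintegral_indicator hU.measurableSet]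
    rw [ae_restrict_iff' measurableSet_ball]
    filter_upwards [lintegral_mk3 h1 h2] with τ h3 hτ
    have h4 : ∀ x, (Ud δ).indicator (fun y => ‖F y‖ₑ ^ 2 * wt b (xp y)) (mk3 x τ) =
        ‖F (mk3 x τ)‖ₑ ^ 2 * wt b x := by
      intro x
      rw [indicator_of_mem (mk3_mem x (by simpa using hτ)), xp_mk3]
    simp only [h4] at h3
    exact h3.ne
  have hzero : ∀ j k : ℕ, b - 2 ≤ j + k → ∀ τ ∈ ball (0 : ℂ) δ, cjk F j k τ = 0 := by
    intro j k hjk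
    have h1 : cjk F j k =ᵐ[volume.restrict (ball (0 : ℂ) δ)] fun _ => 0 := by
      rw [Filter.EventuallyEq, ae_restrict_iff' measurableSet_ball]
      rw [ae_restrict_iff' measurableSet_ball] at hae
      filter_upwards [hae] with τ h2 hτ
      have hτ' : ‖τ‖ < δ := by simpa using hτ
      refine cjk_zero hF hτ' (fun ε hε => ?_) hjk
      have h3 : Differentiable ℂ (fun x : Fin 2 → ℂ => F (mk3 x τ)) := by
        intro x
        have h4 : DifferentiableAt ℂ F (mk3 x τ) := hF.differentiableAt (hU.mem_nhds hτ')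
        refine h4.comp x ?_
        rw [differentiableAt_pi]
        intro i
        fin_cases i
        · simp only [mk3]; exact differentiableAt_apply (𝕜 := ℂ) 0 x
        · simp only [mk3]; exact differentiableAt_apply (𝕜 := ℂ) 1 x
        · simp only [mk3]; exact differentiableAt_const _
      exact growth h3 hb (h2 hτ) hε
    exact Measure.eqOn_open_of_ae_eq h1 isOpen_ball (cjk_diff hF j k).continuousOn
      continuousOn_const
  refine ⟨cjk F, cjk_diff hF, hzero, fun J hJ y hy => expand hF (fun j k hjk => ?_) hy⟩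
  exact hzero j k (hJ.trans (by exact_mod_cast hjk))

end Vale.Agent.P298.H98
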