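import Vale.Agent.P298.H98.Grow
import Vale.Agent.P298.H379.Geo
import Vale.Agent.P271.H408.Ext
import Vale.Agent.P271.LOCE.Pos
import Mathlib.RingTheory.Polynomial.Resultant.Basic

/-!
# P298, OT-C: trace and growth

`G_τ(x) = ∑ c_i x_i^d + (b τ)(x)`, `u` holomorphic along the roots of `G_τ(x₁, x₂, ·)` over the
complement of the discriminant, with a finite weighted `L²` norm: then `u · ∂₃ G` is the
restriction of a polynomial in `Q d e`, holomorphic in `τ`.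
-/

open MeasureTheory Set Filter Topology Metric Polynomial
open scoped ENNReal
open Vale.Agent.P298 Vale.Agent.P298.H379

namespace Vale.Agent.P298.H98

variable {d e : ℕ} {r : ℝ}

/-- the family -/
noncomputable def Gf (c : Fin 3 → ℂ) (b : ℂ → H379.Q d (d - 1)) (τ : ℂ) (x : Fin 3 → ℂ) : ℂ :=
  ∑ i, c i * x i ^ d + ev (b τ) x

/-- the polynomial in the last variable over the base point `y = (x₁, x₂, τ)` -/
noncomputable def px (c : Fin 3 → ℂ) (b : ℂ → H379.Q d (d - 1)) (y : Fin 3 → ℂ) : ℂ[X] :=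
  C (c 2) * X ^ d + C (c 0 * y 0 ^ d + c 1 * y 1 ^ d) +
    ∑ α : Mon d (d - 1), C (b (y 2) α * y 0 ^ (α.1 0 : ℕ) * y 1 ^ (α.1 1 : ℕ)) * X ^ (α.1 2 : ℕ)

lemma eval_px (c : Fin 3 → ℂ) (b : ℂ → H379.Q d (d - 1)) (y : Fin 3 → ℂ) (z : ℂ) :
    (px c b y).eval z = Gf c b (y 2) ![y 0, y 1, z] := by
  simp only [px, Gf, ev, eval_add, eval_mul, eval_C, eval_pow, eval_X, eval_finsetSum,
    Fin.sum_univ_three, Fin.prod_univ_three]
  have h0 : (![y 0, y 1, z] : Fin 3 → ℂ) 0 = y 0 := rfl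
  have h1 : (![y 0, y 1, z] : Fin 3 → ℂ) 1 = y 1 := rfl
  have h2 : (![y 0, y 1, z] : Fin 3 → ℂ) 2 = z := rfl
  rw [h0, h1, h2]
  have h3 : ∀ α : Mon d (d - 1), b (y 2) α * y 0 ^ (α.1 0 : ℕ) * y 1 ^ (α.1 1 : ℕ) * z ^ (α.1 2 : ℕ) =
      b (y 2) α * (y 0 ^ (α.1 0 : ℕ) * y 1 ^ (α.1 1 : ℕ) * z ^ (α.1 2 : ℕ)) := fun α => by ring
  simp only [h3]
  ring

/-- the coefficients of `px` -/
noncomputable def cf (c : Fin 3 → ℂ) (b : ℂ → H379.Q d (d - 1)) (n : ℕ) (y : Fin 3 → ℂ) : ℂ :=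
  (if n = d then c 2 else 0) + (if n = 0 then c 0 * y 0 ^ d + c 1 * y 1 ^ d else 0) +
    ∑ α : Mon d (d - 1), if n = (α.1 2 : ℕ) then
      b (y 2) α * y 0 ^ (α.1 0 : ℕ) * y 1 ^ (α.1 1 : ℕ) else 0

lemma coeff_px (c : Fin 3 → ℂ) (b : ℂ → H379.Q d (d - 1)) (y : Fin 3 → ℂ) (n : ℕ) :
    (px c b y).coeff n = cf c b n y := by
  simp only [px, cf, coeff_add, coeff_C_mul, coeff_X_pow, coeff_C, finsetSum_coeff, mul_ite,
    mul_one, mul_zero]

lemma coeff_px_gt {c : Fin 3 → ℂ} {b : ℂ → H379.Q d (d - 1)} {y : Fin 3 → ℂ} {n : ℕ} (hn : d < n) :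
    (px c b y).coeff n = 0 := by
  rw [coeff_px, cf, if_neg (by omega), if_neg (by omega), Finset.sum_eq_zero]
  · simp
  · intro α _
    rw [if_neg]
    have := α.2.2
    omega

lemma coeff_px_d {c : Fin 3 → ℂ} {b : ℂ → H379.Q d (d - 1)} {y : Fin 3 → ℂ} (hd : 0 < d) :
    (px c b y).coeff d = c 2 := by
  rw [coeff_px, cf, if_pos rfl, if_neg (by omega), Finset.sum_eq_zero]
  · simp
  · intro α _
    rw [if_neg]
    have := α.2.2
    omega

lemma natDegree_px {c : Fin 3 → ℂ} (hc : c 2 ≠ 0) {b : ℂ → H379.Q d (d - 1)} {y : Fin 3 → ℂ}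
    (hd : 0 < d) : (px c b y).natDegree = d := by
  apply le_antisymm
  · exact natDegree_le_iff_coeff_eq_zero.2 fun n hn => coeff_px_gt hn
  · exact le_natDegree_of_ne_zero (by rw [coeff_px_d hd]; exact hc)

lemma px_ne_zero {c : Fin 3 → ℂ} (hc : c 2 ≠ 0) {b : ℂ → H379.Q d (d - 1)} {y : Fin 3 → ℂ}
    (hd : 0 < d) : px c b y ≠ 0 := by
  intro h
  have := coeff_px_d (c := c) (b := b) (y := y) hd
  rw [h, coeff_zero] at this
  exact hc this.symm

lemma isOpen_Ud' (r : ℝ) : IsOpen (Ud r) := isOpen_Ud r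

lemma coeff_diff {c : Fin 3 → ℂ} {b : ℂ → H379.Q d (d - 1)}
    (hb : DifferentiableOn ℂ b (ball 0 r)) (n : ℕ) :
    DifferentiableOn ℂ (fun y => (px c b y).coeff n) (Ud r) := by
  have h1 : (fun y => (px c b y).coeff n) = cf c b n := funext fun y => coeff_px c b y n
  have h2 : ∀ α, DifferentiableOn ℂ (fun y : Fin 3 → ℂ => b (y 2) α) (Ud r) := by
    intro α
    have h3 : DifferentiableOn ℂ (fun τ => b τ α) (ball 0 r) := fun τ hτ =>
      differentiableWithinAt_pi.1 (hb τ hτ) α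
    exact h3.comp (t := ball 0 r) (f := fun y : Fin 3 → ℂ => y 2) (by fun_prop)
      (fun y hy => mem_ball_zero_iff.2 hy)
  rw [h1]
  unfold cf
  refine DifferentiableOn.add (DifferentiableOn.add (by fun_prop) ?_) ?_
  · split_ifs
    · fun_prop
    · fun_prop
  · refine DifferentiableOn.fun_sum fun α _ => ?_
    split_ifs
    · exact ((h2 α).mul (by fun_prop)).mul (by fun_prop)
    · fun_prop

/-! ### The discriminant -/

lemma diffOn_prod {E ι : Type*} [NormedAddCommGroup E] [NormedSpace ℂ E] (t : Finset ι)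
    {f : ι → E → ℂ} {s : Set E} (h : ∀ i ∈ t, DifferentiableOn ℂ (f i) s) :
    DifferentiableOn ℂ (fun y => ∏ i ∈ t, f i y) s := by
  classical
  induction t using Finset.induction_on with
  | empty => simp only [Finset.prod_empty]; exact differentiableOn_const _
  | insert a t ha ih =>
    simp only [Finset.prod_insert ha]
    exact (h a (Finset.mem_insert_self _ _)).mul (ih fun i hi => h i (Finset.mem_insert_of_mem hi))

/-- the discriminant (a resultant) -/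
noncomputable def dsc (c : Fin 3 → ℂ) (b : ℂ → H379.Q d (d - 1)) (y : Fin 3 → ℂ) : ℂ :=
  resultant (px c b y) (derivative (px c b y)) d (d - 1)

lemma dsc_diff {c : Fin 3 → ℂ} {b : ℂ → H379.Q d (d - 1)}
    (hb : DifferentiableOn ℂ b (ball 0 r)) : DifferentiableOn ℂ (dsc c b) (Ud r) := by
  unfold dsc resultant
  have h1 : ∀ i j, DifferentiableOn ℂ (fun y => sylvester (px c b y) (derivative (px c b y)) d (d - 1)
      i j) (Ud r) := by
    intro i j
    simp only [sylvester, Matrix.of_apply]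
    induction j using Fin.addCases with
    | left j =>
      simp only [Fin.addCases_left]
      split_ifs
      · simp only [coeff_derivative]
        exact (coeff_diff hb _).mul (by fun_prop)
      · fun_prop
    | right j =>
      simp only [Fin.addCases_right]
      split_ifs
      · exact coeff_diff hb _
      · fun_prop
  simp only [Matrix.det_apply]
  refine DifferentiableOn.fun_sum fun σ _ => ?_
  have h2 : DifferentiableOn ℂ (fun y => ∏ i, sylvester (px c b y) (derivative (px c b y)) d (d - 1)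
      (σ i) i) (Ud r) := diffOn_prod _ fun i _ => h1 _ _
  exact h2.const_smul _

lemma dsc_ne_zero_iff {c : Fin 3 → ℂ} (hc : c 2 ≠ 0) {b : ℂ → H379.Q d (d - 1)} {y : Fin 3 → ℂ}
    (hd : 0 < d) : dsc c b y ≠ 0 ↔ (px c b y).Separable := by
  have h1 : (px c b y).natDegree = d := natDegree_px hc hd
  have h2 : (derivative (px c b y)).natDegree = d - 1 := by
    rw [natDegree_derivative, h1]
  have h3 : dsc c b y = resultant (px c b y) (derivative (px c b y)) := by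
    rw [dsc, h1, h2]
  rw [h3, Ne, resultant_eq_zero_iff, separable_def]
  have := px_ne_zero hc (b := b) (y := y) hd
  simp [this]

/-! ### Bounds -/

lemma norm_zero_le (y : Fin 3 → ℂ) : ‖y 0‖ ≤ ‖xp y‖ := norm_le_pi_norm (xp y) 0

lemma norm_one_le (y : Fin 3 → ℂ) : ‖y 1‖ ≤ ‖xp y‖ := norm_le_pi_norm (xp y) 1

lemma coeff_bound {c : Fin 3 → ℂ} {b : ℂ → H379.Q d (d - 1)} {B : ℝ} (hB0 : 0 ≤ B)
    (hB : ∀ τ ∈ ball (0 : ℂ) r, ∀ α, ‖b τ α‖ ≤ B) :
    ∃ B' : ℝ, 0 ≤ B' ∧ ∀ y ∈ Ud r, ∀ n ≤ d,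
      ‖(px c b y).coeff n‖ ≤ B' * (1 + ‖xp y‖) ^ (d - n) := by
  refine ⟨‖c 2‖ + (‖c 0‖ + ‖c 1‖) + ∑ α : Mon d (d - 1), B, by positivity, fun y hy n hn => ?_⟩
  have hX : 1 ≤ 1 + ‖xp y‖ := by linarith [norm_nonneg (xp y)]
  have hX0 : 0 ≤ 1 + ‖xp y‖ := by linarith
  have h0 : ‖y 0‖ ≤ 1 + ‖xp y‖ := by linarith [norm_zero_le y]
  have h1 : ‖y 1‖ ≤ 1 + ‖xp y‖ := by linarith [norm_one_le y]
  have hpow : 1 ≤ (1 + ‖xp y‖) ^ (d - n) := one_le_pow₀ hX
  rw [coeff_px, cf, add_mul, add_mul, Finset.sum_mul]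
  refine (norm_add_le _ _).trans (add_le_add ((norm_add_le _ _).trans (add_le_add ?_ ?_)) ?_)
  · split_ifs
    · exact le_mul_of_one_le_right (norm_nonneg _) hpow
    · rw [norm_zero]; positivity
  · split_ifs with h
    · subst h
      rw [Nat.sub_zero, add_mul]
      refine (norm_add_le _ _).trans (add_le_add ?_ ?_)
      · rw [norm_mul, norm_pow]; gcongr
      · rw [norm_mul, norm_pow]; gcongr
    · rw [norm_zero]; positivity
  · refine (norm_sum_le _ _).trans (Finset.sum_le_sum fun α _ => ?_)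
    split_ifs with h
    · rw [norm_mul, norm_mul, norm_pow, norm_pow, mul_assoc]
      have h2 : ‖y 0‖ ^ (α.1 0 : ℕ) * ‖y 1‖ ^ (α.1 1 : ℕ) ≤ (1 + ‖xp y‖) ^ (d - n) := by
        calc ‖y 0‖ ^ (α.1 0 : ℕ) * ‖y 1‖ ^ (α.1 1 : ℕ)
            ≤ (1 + ‖xp y‖) ^ (α.1 0 : ℕ) * (1 + ‖xp y‖) ^ (α.1 1 : ℕ) := by gcongr
          _ = (1 + ‖xp y‖) ^ ((α.1 0 : ℕ) + (α.1 1 : ℕ)) := (pow_add _ _ _).symm
          _ ≤ _ := by
            apply pow_le_pow_right₀ hX
            have := α.2.1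
            omega
      have h3 := hB (y 2) (mem_ball_zero_iff.2 hy) α
      gcongr
    · rw [norm_zero]; positivity

lemma root_bound {c : Fin 3 → ℂ} (hc : c 2 ≠ 0) {b : ℂ → H379.Q d (d - 1)} (hd : 0 < d) {B' : ℝ}
    (hB0 : 0 ≤ B')
    (hB' : ∀ y ∈ Ud r, ∀ n ≤ d, ‖(px c b y).coeff n‖ ≤ B' * (1 + ‖xp y‖) ^ (d - n)) :
    ∃ K : ℝ, 1 ≤ K ∧ ∀ y ∈ Ud r, ∀ z, (px c b y).eval z = 0 → ‖z‖ ≤ K * (1 + ‖xp y‖) := by
  have hc' : 0 < ‖c 2‖ := norm_pos_iff.2 hc
  refine ⟨1 + d * B' / ‖c 2‖, by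
    have : 0 ≤ d * B' / ‖c 2‖ := by positivity
    linarith, fun y hy z hz => ?_⟩
  by_contra hcon
  push Not at hcon
  set X : ℝ := 1 + ‖xp y‖ with hX
  have hX1 : 1 ≤ X := by rw [hX]; linarith [norm_nonneg (xp y)]
  have hXz : X ≤ ‖z‖ := by
    refine le_trans ?_ hcon.le
    have : 0 ≤ d * B' / ‖c 2‖ * X := by positivity
    linarith
  have hz0 : 0 < ‖z‖ := by linarith
  have h1 : (px c b y).eval z = ∑ i ∈ Finset.range (d + 1), (px c b y).coeff i * z ^ i :=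
    eval_eq_sum_range' (by rw [natDegree_px hc hd]; omega) z
  rw [Finset.sum_range_succ, coeff_px_d hd, hz] at h1
  have h2 : c 2 * z ^ d = -∑ i ∈ Finset.range d, (px c b y).coeff i * z ^ i := by
    linear_combination -h1
  have h3 : ‖c 2‖ * ‖z‖ ^ d ≤ ∑ i ∈ Finset.range d, B' * (X * ‖z‖ ^ (d - 1)) := by
    rw [← norm_pow, ← norm_mul, h2, norm_neg]
    refine (norm_sum_le _ _).trans (Finset.sum_le_sum fun i hi => ?_)
    have hid := Finset.mem_range.1 hi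
    rw [norm_mul, norm_pow]
    calc ‖(px c b y).coeff i‖ * ‖z‖ ^ i ≤ (B' * X ^ (d - i)) * ‖z‖ ^ i := by
          gcongr
          exact hB' y hy i hid.le
      _ = B' * (X * (X ^ (d - 1 - i) * ‖z‖ ^ i)) := by
          have : d - i = 1 + (d - 1 - i) := by omega
          rw [this, pow_add, pow_one]; ring
      _ ≤ B' * (X * (‖z‖ ^ (d - 1 - i) * ‖z‖ ^ i)) := by gcongr
      _ = B' * (X * ‖z‖ ^ (d - 1)) := by
          rw [← pow_add]
          congr 3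
          omega
  rw [Finset.sum_const, Finset.card_range, nsmul_eq_mul] at h3
  have h4 : ‖z‖ ^ d = ‖z‖ * ‖z‖ ^ (d - 1) := by
    rw [← pow_succ']
    congr 1
    omega
  rw [h4] at h3
  have h5 : ‖c 2‖ * ‖z‖ ≤ d * B' * X := by
    have h6 : (‖c 2‖ * ‖z‖) * ‖z‖ ^ (d - 1) ≤ (d * B' * X) * ‖z‖ ^ (d - 1) := by
      calc _ = ‖c 2‖ * (‖z‖ * ‖z‖ ^ (d - 1)) := by ring
        _ ≤ _ := h3
        _ = _ := by ring
    exact le_of_mul_le_mul_right h6 (by positivity)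
  have h7 : ‖z‖ ≤ d * B' / ‖c 2‖ * X := by
    rw [div_mul_eq_mul_div, le_div_iff₀ hc']
    linarith
  nlinarith

/-- the coefficient functions of `p / (X - z)` -/
noncomputable def bl (c : Fin 3 → ℂ) (b : ℂ → H379.Q d (d - 1)) (l : ℕ) (y : Fin 3 → ℂ) (z : ℂ) :
    ℂ := ∑ i ∈ Finset.Icc (l + 1) d, z ^ (i - (l + 1)) * (px c b y).coeff i

lemma bl_bound {c : Fin 3 → ℂ} {b : ℂ → H379.Q d (d - 1)} {B' K : ℝ}
    (hB0 : 0 ≤ B') (hK : 1 ≤ K)
    (hB' : ∀ y ∈ Ud r, ∀ n ≤ d, ‖(px c b y).coeff n‖ ≤ B' * (1 + ‖xp y‖) ^ (d - n))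
    (hK' : ∀ y ∈ Ud r, ∀ z, (px c b y).eval z = 0 → ‖z‖ ≤ K * (1 + ‖xp y‖)) :
    ∀ y ∈ Ud r, ∀ z, (px c b y).eval z = 0 → ∀ l,
      ‖bl c b l y z‖ ≤ (d * K ^ d * B') * (1 + ‖xp y‖) ^ (d - 1 - l) := by
  intro y hy z hz l
  set X : ℝ := 1 + ‖xp y‖ with hX
  have hX1 : 1 ≤ X := by rw [hX]; linarith [norm_nonneg (xp y)]
  have hK0 : 0 ≤ K := by linarith
  unfold bl
  refine (norm_sum_le _ _).trans ?_
  have h1 : ∀ i ∈ Finset.Icc (l + 1) d, ‖z ^ (i - (l + 1)) * (px c b y).coeff i‖ ≤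
      K ^ d * B' * X ^ (d - 1 - l) := by
    intro i hi
    rw [Finset.mem_Icc] at hi
    rw [norm_mul, norm_pow]
    calc ‖z‖ ^ (i - (l + 1)) * ‖(px c b y).coeff i‖
        ≤ (K * X) ^ (i - (l + 1)) * (B' * X ^ (d - i)) := by
          gcongr
          · exact hK' y hy z hz
          · exact hB' y hy i hi.2
      _ = K ^ (i - (l + 1)) * B' * (X ^ (i - (l + 1)) * X ^ (d - i)) := by rw [mul_pow]; ring
      _ = K ^ (i - (l + 1)) * B' * X ^ (d - 1 - l) := by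
          rw [← pow_add]
          congr 2
          omega
      _ ≤ K ^ d * B' * X ^ (d - 1 - l) := by
          gcongr
          omega
  refine (Finset.sum_le_sum h1).trans ?_
  rw [Finset.sum_const, nsmul_eq_mul, Nat.card_Icc]
  have h2 : ((d + 1 - (l + 1) : ℕ) : ℝ) ≤ d := by
    exact_mod_cast (by omega : d + 1 - (l + 1) ≤ d)
  calc ((d + 1 - (l + 1) : ℕ) : ℝ) * (K ^ d * B' * X ^ (d - 1 - l))
      ≤ d * (K ^ d * B' * X ^ (d - 1 - l)) := by gcongr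
    _ = _ := by ring

/-- the roots over `y` -/
noncomputable def rts (c : Fin 3 → ℂ) (b : ℂ → H379.Q d (d - 1)) (y : Fin 3 → ℂ) : Finset ℂ :=
  (px c b y).roots.toFinset

lemma mem_rts {c : Fin 3 → ℂ} (hc : c 2 ≠ 0) {b : ℂ → H379.Q d (d - 1)} (hd : 0 < d)
    {y : Fin 3 → ℂ} {z : ℂ} : z ∈ rts c b y ↔ (px c b y).eval z = 0 := by
  rw [rts, Multiset.mem_toFinset, mem_roots (px_ne_zero hc hd), IsRoot.def]

lemma card_rts_le {c : Fin 3 → ℂ} (hc : c 2 ≠ 0) {b : ℂ → H379.Q d (d - 1)} (hd : 0 < d)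
    {y : Fin 3 → ℂ} : (rts c b y).card ≤ d := by
  calc (rts c b y).card ≤ Multiset.card (px c b y).roots := Multiset.toFinset_card_le _
    _ ≤ (px c b y).natDegree := card_roots' _
    _ = d := natDegree_px hc hd

/-- the trace of `w` against the dual basis -/
noncomputable def tr (c : Fin 3 → ℂ) (b : ℂ → H379.Q d (d - 1)) (l : ℕ) (y : Fin 3 → ℂ)
    (w : ℂ → ℂ) : ℂ := ∑ z ∈ rts c b y, w z * bl c b l y z

lemma trace_bound {c : Fin 3 → ℂ} (hc : c 2 ≠ 0) {b : ℂ → H379.Q d (d - 1)} (hd : 0 < d) {B : ℝ}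
    (hB0 : 0 ≤ B) (hB : ∀ τ ∈ ball (0 : ℂ) r, ∀ α, ‖b τ α‖ ≤ B) :
    ∃ C : ℝ, 0 ≤ C ∧ ∀ y ∈ Ud r, ∀ l, ∀ w : ℂ → ℂ,
      ‖tr c b l y w‖ ^ 2 ≤ C * (1 + ‖xp y‖) ^ (2 * (d - 1 - l)) * ∑ z ∈ rts c b y, ‖w z‖ ^ 2 := by
  obtain ⟨B', hB'0, hB'⟩ := coeff_bound (c := c) hB0 hB
  obtain ⟨K, hK, hK'⟩ := root_bound hc hd hB'0 hB'
  refine ⟨d * (d * K ^ d * B') ^ 2, by positivity, fun y hy l w => ?_⟩
  set X : ℝ := 1 + ‖xp y‖ with hX
  have hX1 : 1 ≤ X := by rw [hX]; linarith [norm_nonneg (xp y)]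
  have hK0 : 0 ≤ K := by linarith
  have h1 : ‖tr c b l y w‖ ≤ ∑ z ∈ rts c b y, ‖w z‖ * ‖bl c b l y z‖ := by
    refine (norm_sum_le _ _).trans (le_of_eq ?_)
    exact Finset.sum_congr rfl fun z _ => norm_mul _ _
  have h2 : ∑ z ∈ rts c b y, ‖bl c b l y z‖ ^ 2 ≤ d * ((d * K ^ d * B') * X ^ (d - 1 - l)) ^ 2 := by
    calc ∑ z ∈ rts c b y, ‖bl c b l y z‖ ^ 2
        ≤ ∑ z ∈ rts c b y, ((d * K ^ d * B') * X ^ (d - 1 - l)) ^ 2 := by
          refine Finset.sum_le_sum fun z hz => ?_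
          have := bl_bound hB'0 hK hB' hK' y hy z ((mem_rts hc hd).1 hz) l
          gcongr
      _ = (rts c b y).card * ((d * K ^ d * B') * X ^ (d - 1 - l)) ^ 2 := by
          rw [Finset.sum_const, nsmul_eq_mul]
      _ ≤ _ := by
          gcongr
          exact card_rts_le hc hd
  calc ‖tr c b l y w‖ ^ 2 ≤ (∑ z ∈ rts c b y, ‖w z‖ * ‖bl c b l y z‖) ^ 2 := by gcongr
    _ ≤ (∑ z ∈ rts c b y, ‖w z‖ ^ 2) * ∑ z ∈ rts c b y, ‖bl c b l y z‖ ^ 2 :=
        Finset.sum_mul_sq_le_sq_mul_sq _ _ _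
    _ ≤ (∑ z ∈ rts c b y, ‖w z‖ ^ 2) * (d * ((d * K ^ d * B') * X ^ (d - 1 - l)) ^ 2) := by
        gcongr
    _ = _ := by ring

/-! ### Interpolation -/

lemma tr_interp {c : Fin 3 → ℂ} (hc : c 2 ≠ 0) {b : ℂ → H379.Q d (d - 1)} (hd : 0 < d)
    {y : Fin 3 → ℂ} (w : ℂ → ℂ) {z : ℂ} (hz : (px c b y).eval z = 0) :
    ∑ l ∈ Finset.range d, tr c b l y w * z ^ l = w z * (derivative (px c b y)).eval z := by
  set p := px c b y with hp
  -- the Lagrange polynomial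
  have h1 : ∀ v ∈ rts c b y, ∑ l ∈ Finset.range d, bl c b l y v * z ^ l =
      (p /ₘ (X - C v)).eval z := by
    intro v hv
    have hdeg : (p /ₘ (X - C v)).natDegree < d := by
      rw [natDegree_divByMonic _ (monic_X_sub_C v), natDegree_X_sub_C, natDegree_px hc hd]
      omega
    rw [eval_eq_sum_range' hdeg]
    refine Finset.sum_congr rfl fun l _ => ?_
    rw [coeff_divByMonic_X_sub_C, natDegree_px hc hd, bl]
  have h2 : ∀ v ∈ rts c b y, v ≠ z → (p /ₘ (X - C v)).eval z = 0 := by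
    intro v hv hvz
    have h3 : (X - C v) * (p /ₘ (X - C v)) = p := by
      rw [mul_divByMonic_eq_iff_isRoot, IsRoot.def]
      exact (mem_rts hc hd).1 hv
    have h4 := congrArg (eval z) h3
    rw [eval_mul, eval_sub, eval_X, eval_C, hz] at h4
    rcases mul_eq_zero.1 h4 with h | h
    · exact absurd (sub_eq_zero.1 h).symm hvz
    · exact h
  have h5 : (p /ₘ (X - C z)).eval z = (derivative p).eval z := by
    have h3 : (X - C z) * (p /ₘ (X - C z)) = p := by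
      rw [mul_divByMonic_eq_iff_isRoot, IsRoot.def]
      exact hz
    have h4 := congrArg (fun q => (derivative q).eval z) h3
    simp only [derivative_mul, derivative_sub, derivative_X, derivative_C, sub_zero, one_mul,
      eval_add, eval_mul, eval_sub, eval_X, eval_C, sub_self, zero_mul, add_zero] at h4
    exact h4
  calc ∑ l ∈ Finset.range d, tr c b l y w * z ^ l
      = ∑ v ∈ rts c b y, w v * ∑ l ∈ Finset.range d, bl c b l y v * z ^ l := by
        simp only [tr, Finset.sum_mul, Finset.mul_sum]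
        rw [Finset.sum_comm]
        exact Finset.sum_congr rfl fun v _ => Finset.sum_congr rfl fun l _ => by ring
    _ = ∑ v ∈ rts c b y, w v * (p /ₘ (X - C v)).eval z :=
        Finset.sum_congr rfl fun v hv => by rw [h1 v hv]
    _ = w z * (p /ₘ (X - C z)).eval z := by
        rw [Finset.sum_eq_single z]
        · intro v hv hvz
          rw [h2 v hv hvz, mul_zero]
        · intro h
          exact absurd ((mem_rts hc hd).2 hz) h
    _ = _ := by rw [h5]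

end Vale.Agent.P298.H98
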