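import Vale.Agent.P298.H283.L2X
import Vale.Agent.P298.H368.D3b
import Vale.Agent.P298.Main.Iface

/-!
P298: the output of block OT.
-/

open scoped NNReal ENNReal
open Set Metric MeasureTheory

noncomputable section

namespace Vale.Agent.P298.H98

open Vale.Agent.P298.H379 (Q ev PFam KK OTS)

theorem l2x : H368.L2X H283.l2xC := by
  intro d e hd c hc b r hr hb hB hred k hk v hv hN h hh h0 _
  exact H283.l2x d e hd c hc b r hr hb hB hred k hk.1 hk.2.2.1 v hN h hh h0

lemma l2xC_ne_zero : H283.l2xC ≠ 0 := by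
  unfold H283.l2xC
  have h : 0 < H293.otC := H293.otC_pos
  have : 0 < 4 * (H293.otC * Real.pi) := by positivity
  exact (Real.toNNReal_pos.2 this).ne'

/-- **Block OT.** -/
theorem otOut : Main.OTOut :=
  ⟨2 * H283.l2xC, fun _ _ _ F e =>
    ⟨H368.otp1c_all l2xC_ne_zero l2x F e, H368.ots_all l2x F e⟩⟩

end Vale.Agent.P298.H98
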